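import Mathlib
import Crest.Prelude.Def_AsymptoticConvexity

/-! General lemmas on asymptotic uniform convexity used for the statements S0166 to S0169. -/

set_option autoImplicit false
open Filter Topology

namespace Crest.Agent.AUC

open Crest.AnalysisR

section general

variable {X : Type*} [NormedAddCommGroup X] [NormedSpace ℝ X]

/-- A sequence satisfying an upper 2-estimate comes close to every closed subspace of finite
codimension. -/
theorem exists_near_of_upper_two (d : ℕ → X) (C : ℝ)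
    (hd : ∀ (A : Finset ℕ) (c : ℕ → ℝ), ‖∑ a ∈ A, c a • d a‖ ≤ C * Real.sqrt (∑ a ∈ A, c a ^ 2))
    (S : Submodule ℝ X) (hS : IsClosed (S : Set X)) (hfin : FiniteDimensional ℝ (X ⧸ S))
    (η : ℝ) (hη : 0 < η) : ∃ᶠ a in atTop, ∃ u ∈ S, ‖d a - u‖ < η := by
  have := hS
  -- for every linear functional on the quotient the values tend to zero
  have key : ∀ φ : (X ⧸ S) →L[ℝ] ℝ, Tendsto (fun a => φ (S.mkQ (d a))) atTop (𝓝 0) := by
    intro φ
    have hsum : ∀ A : Finset ℕ, ∑ a ∈ A, (φ (S.mkQ (d a))) ^ 2 ≤ (‖φ‖ * C) ^ 2 := by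
      intro A
      set s := ∑ a ∈ A, (φ (S.mkQ (d a))) ^ 2 with hs
      have hs0 : 0 ≤ s := Finset.sum_nonneg fun _ _ => sq_nonneg _
      have h1 : s = φ (S.mkQ (∑ a ∈ A, (φ (S.mkQ (d a))) • d a)) := by
        rw [map_sum, map_sum, hs]
        refine Finset.sum_congr rfl fun a _ => ?_
        rw [map_smul, map_smul, smul_eq_mul, sq]
      have h2 : s ≤ ‖φ‖ * (C * Real.sqrt s) := by
        calc s ≤ ‖φ (S.mkQ (∑ a ∈ A, (φ (S.mkQ (d a))) • d a))‖ := by
                rw [← h1]; exact le_abs_self _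
          _ ≤ ‖φ‖ * ‖S.mkQ (∑ a ∈ A, (φ (S.mkQ (d a))) • d a)‖ := φ.le_opNorm _
          _ ≤ ‖φ‖ * ‖∑ a ∈ A, (φ (S.mkQ (d a))) • d a‖ := by
                gcongr
                exact Submodule.Quotient.norm_mk_le _ _
          _ ≤ ‖φ‖ * (C * Real.sqrt s) := by
                gcongr
                exact hd A _
      rcases eq_or_lt_of_le hs0 with h0 | h0
      · rw [← h0]; positivity
      · have h3 : 0 < Real.sqrt s := Real.sqrt_pos.2 h0
        have h4 : Real.sqrt s * Real.sqrt s = s := Real.mul_self_sqrt hs0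
        have h5 : Real.sqrt s ≤ ‖φ‖ * C := by
          by_contra hcon
          push Not at hcon
          have : ‖φ‖ * C * Real.sqrt s < Real.sqrt s * Real.sqrt s :=
            mul_lt_mul_of_pos_right hcon h3
          rw [h4] at this
          linarith [h2, mul_assoc ‖φ‖ C (Real.sqrt s)]
        calc s = Real.sqrt s ^ 2 := by rw [sq, h4]
          _ ≤ (‖φ‖ * C) ^ 2 := by gcongr
    have hsummable : Summable fun a => (φ (S.mkQ (d a))) ^ 2 :=
      summable_of_sum_le (fun _ => sq_nonneg _) hsum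
    have h0 := hsummable.tendsto_atTop_zero
    have h1 : Tendsto (fun a => Real.sqrt ((φ (S.mkQ (d a))) ^ 2)) atTop (𝓝 0) := by
      have := (Real.continuous_sqrt.tendsto 0).comp h0
      simpa [Function.comp_def] using this
    have h2 : Tendsto (fun a => |φ (S.mkQ (d a))|) atTop (𝓝 0) := by
      simpa [Real.sqrt_sq_eq_abs] using h1
    exact (tendsto_zero_iff_abs_tendsto_zero _).2 h2
  have hq : Tendsto (fun a => S.mkQ (d a)) atTop (𝓝 (0 : X ⧸ S)) := by
    let b := Module.finBasis ℝ (X ⧸ S)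
    have hb : Tendsto (fun a => b.equivFunL (S.mkQ (d a))) atTop (𝓝 0) := by
      rw [tendsto_pi_nhds]
      intro i
      have := key ((ContinuousLinearMap.proj i).comp
        (b.equivFunL : (X ⧸ S) →L[ℝ] (Fin _ → ℝ)))
      simpa using this
    have h2 := (b.equivFunL.symm.continuous.tendsto 0).comp hb
    simpa [Function.comp_def] using h2
  have hev : ∀ᶠ a in atTop, ‖S.mkQ (d a)‖ < η := by
    have := hq.norm
    simp only [norm_zero] at this
    exact this.eventually (gt_mem_nhds hη)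
  refine hev.frequently.mono fun a ha => ?_
  obtain ⟨m, hm, hm2⟩ := Submodule.Quotient.norm_mk_lt (S.mkQ (d a))
    (ε := η - ‖S.mkQ (d a)‖) (by linarith)
  refine ⟨d a - m, ?_, ?_⟩
  · have : (S.mkQ (d a - m)) = 0 := by
      rw [map_sub, sub_eq_zero]
      exact hm.symm
    rwa [← LinearMap.mem_ker, Submodule.ker_mkQ] at this
  · have : d a - (d a - m) = m := by abel
    rw [this]
    linarith

/-- The condition `IsCof` for a plain normed space. -/
def IsCofSet (F : Set X) : Prop :=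
  ∃ S : Submodule ℝ X, (S : Set X) = F ∧ IsClosed F ∧ FiniteDimensional ℝ (X ⧸ S)

/-- Asymptotic uniform convexity for a plain normed space. -/
def IsAUCNorm (N : X → ℝ) : Prop :=
  ∀ t : ℝ, 0 < t → ∃ c : ℝ, 0 < c ∧ ∀ x : X, N x = 1 → ∃ F : Set X, IsCofSet F ∧
    ∀ y ∈ F, N y = 1 → c ≤ N (x + t • y) - 1

/-- Equivalent norm. -/
def IsEquivNorm (N : X → ℝ) : Prop :=
  (∀ x y : X, N (x + y) ≤ N x + N y) ∧ (∀ (a : ℝ) (x : X), N (a • x) = abs a * N x) ∧
    ∃ a b : ℝ, 0 < a ∧ ∀ x : X, a * ‖x‖ ≤ N x ∧ N x ≤ b * ‖x‖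

theorem not_isAUCNorm_of_trees (P : ℕ → X → Prop) (R δ m : ℝ) (hδ : 0 < δ) (hm : 0 < m)
    (hbd : ∀ k x, P k x → ‖x‖ ≤ R)
    (hstep : ∀ k x, P (k + 1) x → ∀ S : Submodule ℝ X, IsClosed (S : Set X) →
      FiniteDimensional ℝ (X ⧸ S) → ∀ η : ℝ, 0 < η →
      ∃ x' : X, P k x' ∧ δ ≤ ‖x' - x‖ ∧ ∃ u ∈ S, ‖x' - x - u‖ ≤ η)
    (hstart : ∀ k, ∃ x, P k x ∧ m ≤ ‖x‖)
    (N : X → ℝ) (hN : IsEquivNorm N) : ¬ IsAUCNorm N := by
  rintro hA
  obtain ⟨hadd, hsmul, a, b, ha, hab⟩ := hN
  have hR : 0 < R := by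
    obtain ⟨x, hx, hmx⟩ := hstart 0
    linarith [hbd 0 x hx]
  have hb : 0 < b := by
    obtain ⟨x, hx, hmx⟩ := hstart 0
    have h1 := hab x
    have h2 : 0 < ‖x‖ := by linarith
    have h3 : 0 < b * ‖x‖ := lt_of_lt_of_le (mul_pos ha h2) (h1.1.trans h1.2)
    exact pos_of_mul_pos_left h3 h2.le
  have hneg : ∀ x, N (-x) = N x := fun x => by
    have := hsmul (-1) x
    simpa using this
  set t : ℝ := a * δ / (2 * b * R) with ht
  have ht0 : 0 < t := by positivity
  obtain ⟨c, hc, hcx⟩ := hA t ht0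
  -- one step
  have hone : ∀ k x, P (k + 1) x → a * m ≤ N x → ∃ x', P k x' ∧ (1 + c / 2) * N x ≤ N x' := by
    intro k x hx hNx
    have hNx0 : 0 < N x := lt_of_lt_of_le (by positivity) hNx
    have hNinv : N ((N x)⁻¹ • x) = 1 := by
      rw [hsmul, abs_of_pos (inv_pos.2 hNx0), inv_mul_cancel₀ hNx0.ne']
    obtain ⟨F, ⟨S, hSF, hcl, hfd⟩, hF⟩ := hcx _ hNinv
    subst hSF
    obtain ⟨x', hx', hd, u, hu, hη⟩ := hstep k x hx S hcl hfd (min (δ / 2) (c * (a * m) / (2 * b)))
      (by positivity)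
    refine ⟨x', hx', ?_⟩
    have hη1 : ‖x' - x - u‖ ≤ δ / 2 := hη.trans (min_le_left _ _)
    have hη2 : ‖x' - x - u‖ ≤ c * (a * m) / (2 * b) := hη.trans (min_le_right _ _)
    have hu1 : δ / 2 ≤ ‖u‖ := by
      have : ‖x' - x‖ ≤ ‖x' - x - u‖ + ‖u‖ := by
        have := norm_add_le (x' - x - u) u
        simpa using this
      linarith
    have hNu : a * (δ / 2) ≤ N u := le_trans (by gcongr) (hab u).1
    have hNu0 : 0 < N u := lt_of_lt_of_le (by positivity) hNu
    have hNxR : N x ≤ b * R := (hab x).2.trans (by gcongr; exact hbd _ _ hx)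
    set τ : ℝ := N u / N x with hτ
    have hτ0 : 0 < τ := by positivity
    have htτ : t ≤ τ := by
      rw [ht, hτ, div_le_div_iff₀ (by positivity) hNx0]
      calc a * δ * N x ≤ a * δ * (b * R) := by gcongr
        _ = a * (δ / 2) * (2 * b * R) := by ring
        _ ≤ N u * (2 * b * R) := by gcongr
    have hyN : N ((N u)⁻¹ • u) = 1 := by
      rw [hsmul, abs_of_pos (inv_pos.2 hNu0), inv_mul_cancel₀ hNu0.ne']
    have h1 := hF ((N u)⁻¹ • u) (S.smul_mem _ hu) hyN
    obtain ⟨xh, hxh⟩ : ∃ xh, xh = (N x)⁻¹ • x := ⟨_, rfl⟩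
    obtain ⟨y, hy⟩ : ∃ y, y = (N u)⁻¹ • u := ⟨_, rfl⟩
    rw [← hxh] at hNinv
    rw [← hxh, ← hy] at h1
    have h2 : N (xh + τ • y) ≥ 1 + c := by
      have hconv : xh + t • y = (1 - t / τ) • xh + (t / τ) • (xh + τ • y) := by
        have h3 : (t / τ) * τ = t := div_mul_cancel₀ _ hτ0.ne'
        rw [smul_add, smul_smul (t / τ) τ y, h3, sub_smul, one_smul]
        abel
      have hl : 0 ≤ t / τ := by positivity
      have hl1 : t / τ ≤ 1 := (div_le_one hτ0).2 htτ
      have h4 : N (xh + t • y) ≤ (1 - t / τ) * 1 + (t / τ) * N (xh + τ • y) := by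
        rw [hconv]
        refine (hadd _ _).trans ?_
        rw [hsmul _ xh, hsmul _ (xh + τ • y), abs_of_nonneg (by linarith), abs_of_nonneg hl, hNinv]
      have hlpos : 0 < t / τ := by positivity
      by_contra hcon
      push Not at hcon
      have h5 : (t / τ) * N (xh + τ • y) < (t / τ) * (1 + c) := by gcongr
      have h6 : (t / τ) * c ≤ 1 * c := by gcongr
      linarith [h1, h4]
    have h3 : N (x + u) ≥ (1 + c) * N x := by
      have hxu : x + u = N x • (xh + τ • y) := by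
        have h4 : N x * (N u / N x) * (N u)⁻¹ = 1 := by field_simp
        rw [hxh, hy, hτ, smul_add, smul_smul, mul_inv_cancel₀ hNx0.ne', one_smul, smul_smul,
          smul_smul, h4, one_smul]
      rw [hxu, hsmul, abs_of_pos hNx0]
      nlinarith
    have h4 : N (x + u) ≤ N x' + N (x' - x - u) := by
      have : x + u = x' + -(x' - x - u) := by abel
      rw [this]
      refine (hadd _ _).trans ?_
      rw [hneg]
    have h5 : N (x' - x - u) ≤ c * N x / 2 := by
      calc N (x' - x - u) ≤ b * ‖x' - x - u‖ := (hab _).2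
        _ ≤ b * (c * (a * m) / (2 * b)) := by gcongr
        _ = c * (a * m) / 2 := by field_simp
        _ ≤ c * N x / 2 := by gcongr
    linarith
  have hind : ∀ k x, P k x → a * m ≤ N x → N x * (1 + c / 2) ^ k ≤ b * R := by
    intro k
    induction k with
    | zero =>
      intro x hx _
      simp only [pow_zero, mul_one]
      exact (hab x).2.trans (by gcongr; exact hbd _ _ hx)
    | succ k ih =>
      intro x hx hNx
      obtain ⟨x', hx', hgrow⟩ := hone k x hx hNx
      have hNx0 : 0 < N x := lt_of_lt_of_le (by positivity) hNx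
      have h1 : N x ≤ N x' := by nlinarith
      have h2 := ih x' hx' (hNx.trans h1)
      calc N x * (1 + c / 2) ^ (k + 1) = ((1 + c / 2) * N x) * (1 + c / 2) ^ k := by ring
        _ ≤ N x' * (1 + c / 2) ^ k := by gcongr
        _ ≤ b * R := h2
  obtain ⟨k, hk⟩ := pow_unbounded_of_one_lt (b * R / (a * m)) (show 1 < 1 + c / 2 by linarith)
  obtain ⟨x, hx, hmx⟩ := hstart k
  have hNx : a * m ≤ N x := le_trans (by gcongr) (hab x).1
  have h1 := hind k x hx hNx
  have h2 : b * R < a * m * (1 + c / 2) ^ k := by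
    rw [div_lt_iff₀ (by positivity)] at hk
    linarith
  have h3 : a * m * (1 + c / 2) ^ k ≤ N x * (1 + c / 2) ^ k := by gcongr
  linarith

end general

/-- The version for the bundled record. -/
theorem not_isAUC_iff (E : RealBanach) (N : E.X → ℝ) :
    letI := E.normed; letI := E.space
    (E.IsAUC N ↔ IsAUCNorm N) := Iff.rfl

theorem isEquivNorm_iff (E : RealBanach) (N : E.X → ℝ) :
    letI := E.normed; letI := E.space
    (E.IsEquivNorm N ↔ IsEquivNorm N) := Iff.rfl

end Crest.Agent.AUC
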