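import Mathlib
import Crest.Prelude.Def_AsymptoticConvexity
import Crest.Prelude.Def_TreePotentials
import Crest.Agent.AUC.Basic

/-! Spaces normed by tests with bounded path potentials on the countably branching tree. -/

set_option autoImplicit false
open Filter Topology

namespace Crest.Agent.AUC.Tree

open Crest.AnalysisR Crest.AnalysisR.TreePotential

/-- the coefficient family with given potentials -/
def diffFam (H : List ℕ → ℝ) : List ℕ → ℝ
  | [] => H []
  | a :: v => H (a :: v) - H v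

theorem pathPotential_diffFam (H : List ℕ → ℝ) (s : List ℕ) :
    pathPotential (diffFam H) s = H s := by
  induction s with
  | nil => rfl
  | cons a v ih => simp [pathPotential, diffFam, ih]

open Classical in
/-- last vertex in `A` on the path to the vertex -/
noncomputable def exitPt (A : Set (List ℕ)) : List ℕ → List ℕ
  | [] => []
  | a :: v => if a :: v ∈ A then a :: v else exitPt A v

theorem exitPt_of_mem {A : Set (List ℕ)} {s : List ℕ} (hs : s ∈ A) : exitPt A s = s := by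
  cases s with
  | nil => rfl
  | cons a v => simp [exitPt, hs]

theorem exitPt_of_not_mem {A : Set (List ℕ)} {a : ℕ} {v : List ℕ} (hs : a :: v ∉ A) :
    exitPt A (a :: v) = exitPt A v := by
  simp [exitPt, hs]

theorem exitPt_mem {P A : Set (List ℕ)} (hP : ∀ a v, a :: v ∈ P → v ∈ P) {s : List ℕ}
    (hs : s ∈ P) : exitPt A s ∈ P := by
  induction s with
  | nil => exact hs
  | cons a v ih =>
    by_cases h : a :: v ∈ A
    · rw [exitPt_of_mem h]; exact hs
    · rw [exitPt_of_not_mem h]; exact ih (hP a v hs)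

/-- one-sided truncation, towards the side opposite to the sign of `p` -/
noncomputable def T1 (p r : ℝ) : ℝ := if 0 ≤ p then min r 0 else max r 0

/-- the complementary truncation -/
noncomputable def T2 (p r : ℝ) : ℝ := if 0 ≤ p then max r 0 else min r 0

theorem T1_add_T2 (p r : ℝ) : T1 p r + T2 p r = r := by
  unfold T1 T2
  split_ifs
  · rcases le_total r 0 with h | h <;> simp [h]
  · rcases le_total r 0 with h | h <;> simp [h]

theorem T1_zero (p : ℝ) : T1 p 0 = 0 := by unfold T1; split_ifs <;> simp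
theorem T2_zero (p : ℝ) : T2 p 0 = 0 := by unfold T2; split_ifs <;> simp

theorem abs_min_sub (r s : ℝ) : |min r 0 - min s 0| ≤ |r - s| := by
  simpa using abs_inf_sub_inf_le_abs r s 0

theorem abs_max_sub (r s : ℝ) : |max r 0 - max s 0| ≤ |r - s| := by
  simpa using abs_sup_sub_sup_le_abs r s 0

theorem T1_lip (p r s : ℝ) : |T1 p r - T1 p s| ≤ |r - s| := by
  unfold T1; split_ifs
  · exact abs_min_sub r s
  · exact abs_max_sub r s

theorem T2_lip (p r s : ℝ) : |T2 p r - T2 p s| ≤ |r - s| := by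
  unfold T2; split_ifs
  · exact abs_max_sub r s
  · exact abs_min_sub r s

/-- A family of tests on the tree: `P` is the set of vertices at which the potential is
constrained, `D` the set of vertices carrying coordinates. -/
structure IsTestSys {ι : Type*} (tst : ι → List ℕ → ℝ) (P D : Set (List ℕ)) : Prop where
  anc : ∀ a v, a :: v ∈ P → v ∈ P
  bound : ∀ i, ∀ s ∈ P, |pathPotential (tst i) s| ≤ 1
  combine : ∀ i j (α β : ℝ), 0 ≤ α → 0 ≤ β → α ^ 2 + β ^ 2 = 1 → ∀ h : List ℕ → ℝ,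
    (∀ s ∈ P, |pathPotential h s| ≤ 1) →
    (∀ s, h s ^ 2 ≤ α ^ 2 * tst i s ^ 2 + β ^ 2 * tst j s ^ 2) → ∃ k, tst k = h
  single : ∀ s ∈ D, ∃ i, tst i = Pi.single s 1
  zero : ∀ i, ∀ s, s ∉ D → tst i s = 0
  sibling : ∀ i (r : List ℕ) (A : Finset ℕ), ∑ n ∈ A, tst i (n :: r) ^ 2 ≤ 1

/-- A normed space generated by coordinate vectors and normed by the tests. -/
structure TreeSpace (X : Type*) [NormedAddCommGroup X] [NormedSpace ℝ X] {ι : Type*}
    (tst : ι → List ℕ → ℝ) where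
  e : List ℕ → X
  ev : ι → X →L[ℝ] ℝ
  ev_e : ∀ i s, ev i (e s) = tst i s
  ev_le : ∀ i x, ev i x ≤ ‖x‖
  exists_ev : ∀ (x : X) (ε : ℝ), 0 < ε → ∃ i, ‖x‖ - ε < ev i x
  dense : ∀ x : X, x ∈ closure (Submodule.span ℝ (Set.range e) : Set X)

section combine

variable {ι : Type*} {tst : ι → List ℕ → ℝ} {P D : Set (List ℕ)}

theorem exists_combined (hT : IsTestSys tst P D) (A : Set (List ℕ)) (hA0 : [] ∈ A)
    (hA : ∀ a v, a :: v ∈ A → v ∈ A) (i j : ι) (α β : ℝ) (hα : 0 ≤ α) (hβ : 0 ≤ β)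
    (hαβ : α ^ 2 + β ^ 2 = 1) (h2β : 2 * β ≤ 1) :
    ∃ k l : ι, (∀ s ∈ A, tst k s = α * tst i s) ∧ (∀ s ∈ A, tst l s = α * tst i s) ∧
      ∀ s, s ∉ A → tst k s - tst l s = β * tst j s := by
  have hα1 : α ≤ 1 := by nlinarith
  set p : List ℕ → ℝ := fun s => pathPotential (tst i) (exitPt A s) with hp
  set r : List ℕ → ℝ := fun s => pathPotential (tst j) s - pathPotential (tst j) (exitPt A s)
    with hr
  set H1 : List ℕ → ℝ := fun s => α * p s + β * T1 (p s) (r s) with hH1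
  set H2 : List ℕ → ℝ := fun s => α * p s - β * T2 (p s) (r s) with hH2
  have hpA : ∀ s ∈ A, p s = pathPotential (tst i) s := fun s hs => by
    simp only [hp, exitPt_of_mem hs]
  have hrA : ∀ s ∈ A, r s = 0 := fun s hs => by
    simp only [hr, exitPt_of_mem hs, sub_self]
  have hpn : ∀ a v, a :: v ∉ A → p (a :: v) = p v := fun a v hs => by
    simp only [hp, exitPt_of_not_mem hs]
  have hrn : ∀ a v, a :: v ∉ A → r (a :: v) - r v = tst j (a :: v) := fun a v hs => by
    simp only [hr, exitPt_of_not_mem hs, pathPotential]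
    ring
  have h1A : ∀ s ∈ A, diffFam H1 s = α * tst i s := by
    intro s hs
    cases s with
    | nil => simp [diffFam, hH1, hpA _ hs, hrA _ hs, T1_zero, pathPotential]
    | cons a v =>
      have hv := hA a v hs
      simp only [diffFam, hH1, hpA _ hs, hrA _ hs, hpA _ hv, hrA _ hv, T1_zero, pathPotential]
      ring
  have h2A : ∀ s ∈ A, diffFam H2 s = α * tst i s := by
    intro s hs
    cases s with
    | nil => simp [diffFam, hH2, hpA _ hs, hrA _ hs, T2_zero, pathPotential]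
    | cons a v =>
      have hv := hA a v hs
      simp only [diffFam, hH2, hpA _ hs, hrA _ hs, hpA _ hv, hrA _ hv, T2_zero, pathPotential]
      ring
  have h1n : ∀ s, s ∉ A → |diffFam H1 s| ≤ β * |tst j s| := by
    intro s hs
    cases s with
    | nil => exact absurd hA0 hs
    | cons a v =>
      have : diffFam H1 (a :: v) = β * (T1 (p v) (r (a :: v)) - T1 (p v) (r v)) := by
        simp only [diffFam, hH1, hpn a v hs]; ring
      rw [this, abs_mul, abs_of_nonneg hβ, ← hrn a v hs]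
      exact mul_le_mul_of_nonneg_left (T1_lip _ _ _) hβ
  have h2n : ∀ s, s ∉ A → |diffFam H2 s| ≤ β * |tst j s| := by
    intro s hs
    cases s with
    | nil => exact absurd hA0 hs
    | cons a v =>
      have : diffFam H2 (a :: v) = β * (-(T2 (p v) (r (a :: v)) - T2 (p v) (r v))) := by
        simp only [diffFam, hH2, hpn a v hs]; ring
      rw [this, abs_mul, abs_neg, abs_of_nonneg hβ, ← hrn a v hs]
      exact mul_le_mul_of_nonneg_left (T2_lip _ _ _) hβ
  have hsq : ∀ H : List ℕ → ℝ, (∀ s ∈ A, diffFam H s = α * tst i s) →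
      (∀ s, s ∉ A → |diffFam H s| ≤ β * |tst j s|) →
      ∀ s, diffFam H s ^ 2 ≤ α ^ 2 * tst i s ^ 2 + β ^ 2 * tst j s ^ 2 := by
    intro H hHA hHn s
    by_cases hs : s ∈ A
    · rw [hHA s hs, mul_pow]
      have : 0 ≤ β ^ 2 * tst j s ^ 2 := by positivity
      linarith
    · have h1 : diffFam H s ^ 2 ≤ (β * |tst j s|) ^ 2 := by
        rw [← sq_abs (diffFam H s)]
        exact pow_le_pow_left₀ (abs_nonneg _) (hHn s hs) 2
      rw [mul_pow, sq_abs] at h1
      have : 0 ≤ α ^ 2 * tst i s ^ 2 := by positivity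
      linarith
  have hpP : ∀ s ∈ P, |p s| ≤ 1 := fun s hs => hT.bound i _ (exitPt_mem hT.anc hs)
  have hrP : ∀ s ∈ P, |r s| ≤ 2 := fun s hs => by
    have h1 := hT.bound j s hs
    have h2 := hT.bound j _ (exitPt_mem (A := A) hT.anc hs)
    have := abs_sub (pathPotential (tst j) s) (pathPotential (tst j) (exitPt A s))
    simp only [hr]
    linarith
  have hH1P : ∀ s ∈ P, |pathPotential (diffFam H1) s| ≤ 1 := by
    intro s hs
    rw [pathPotential_diffFam]
    have h1 := abs_le.1 (hpP s hs)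
    have h2 := abs_le.1 (hrP s hs)
    simp only [hH1, T1]
    split_ifs with h0
    · have h3 : min (r s) 0 ≤ 0 := min_le_right _ _
      have h4 : -2 ≤ min (r s) 0 := le_min h2.1 (by norm_num)
      rw [abs_le]; constructor <;> nlinarith
    · push Not at h0
      have h3 : 0 ≤ max (r s) 0 := le_max_right _ _
      have h4 : max (r s) 0 ≤ 2 := max_le h2.2 (by norm_num)
      rw [abs_le]; constructor <;> nlinarith
  have hH2P : ∀ s ∈ P, |pathPotential (diffFam H2) s| ≤ 1 := by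
    intro s hs
    rw [pathPotential_diffFam]
    have h1 := abs_le.1 (hpP s hs)
    have h2 := abs_le.1 (hrP s hs)
    simp only [hH2, T2]
    split_ifs with h0
    · have h3 : 0 ≤ max (r s) 0 := le_max_right _ _
      have h4 : max (r s) 0 ≤ 2 := max_le h2.2 (by norm_num)
      rw [abs_le]; constructor <;> nlinarith
    · push Not at h0
      have h3 : min (r s) 0 ≤ 0 := min_le_right _ _
      have h4 : -2 ≤ min (r s) 0 := le_min h2.1 (by norm_num)
      rw [abs_le]; constructor <;> nlinarith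
  obtain ⟨k, hk⟩ := hT.combine i j α β hα hβ hαβ _ hH1P (hsq _ h1A h1n)
  obtain ⟨l, hl⟩ := hT.combine i j α β hα hβ hαβ _ hH2P (hsq _ h2A h2n)
  refine ⟨k, l, ?_, ?_, ?_⟩
  · rw [hk]; exact h1A
  · rw [hl]; exact h2A
  · rw [hk, hl]
    intro s hs
    cases s with
    | nil => exact absurd hA0 hs
    | cons a v =>
      have e1 : diffFam H1 (a :: v) = β * (T1 (p v) (r (a :: v)) - T1 (p v) (r v)) := by
        simp only [diffFam, hH1, hpn a v hs]; ring
      have e2 : diffFam H2 (a :: v) = -(β * (T2 (p v) (r (a :: v)) - T2 (p v) (r v))) := by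
        simp only [diffFam, hH2, hpn a v hs]; ring
      rw [e1, e2, ← hrn a v hs]
      have e3 := T1_add_T2 (p v) (r (a :: v))
      have e4 := T1_add_T2 (p v) (r v)
      linear_combination β * e3 - β * e4

end combine

/-- the basic asymptotic inequality in a normed space -/
def GoodMod (X : Type*) [NormedAddCommGroup X] [NormedSpace ℝ X] : Prop :=
  ∀ (x : X) (η : ℝ), 0 < η → ∃ S : Submodule ℝ X, IsClosed (S : Set X) ∧
    FiniteDimensional ℝ (X ⧸ S) ∧
    ∀ y ∈ S, 2 * Real.sqrt (‖x‖ ^ 2 + ‖y‖ ^ 2 / 4) - η ≤ ‖x + y‖ + ‖x - y‖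

section space

variable {X : Type*} [NormedAddCommGroup X] [NormedSpace ℝ X] {ι : Type*}
  {tst : ι → List ℕ → ℝ} {P D : Set (List ℕ)}

theorem ker_cof {Y : Type*} [NormedAddCommGroup Y] [NormedSpace ℝ Y] [FiniteDimensional ℝ Y]
    (Φ : X →L[ℝ] Y) : IsClosed (LinearMap.ker (Φ : X →ₗ[ℝ] Y) : Set X) ∧
      FiniteDimensional ℝ (X ⧸ LinearMap.ker (Φ : X →ₗ[ℝ] Y)) := by
  constructor
  · have : (LinearMap.ker (Φ : X →ₗ[ℝ] Y) : Set X) = Φ ⁻¹' {0} := by
      ext x; simp
    rw [this]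
    exact isClosed_singleton.preimage Φ.continuous
  · exact LinearEquiv.finiteDimensional (LinearMap.quotKerEquivRange (Φ : X →ₗ[ℝ] Y)).symm

theorem star_finite (hT : IsTestSys tst P D) (E : TreeSpace X tst) (A : Set (List ℕ))
    (hA0 : [] ∈ A) (hA : ∀ a v, a :: v ∈ A → v ∈ A) (x y : X)
    (hx : x ∈ Submodule.span ℝ (E.e '' A)) (hy : y ∈ Submodule.span ℝ (E.e '' Aᶜ)) :
    2 * Real.sqrt (‖x‖ ^ 2 + ‖y‖ ^ 2 / 4) ≤ ‖x + y‖ + ‖x - y‖ := by
  have htri : 2 * ‖y‖ ≤ ‖x + y‖ + ‖x - y‖ := by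
    have h1 : (2 : ℝ) • y = (x + y) - (x - y) := by rw [two_smul]; abel
    have h2 : ‖(2 : ℝ) • y‖ = 2 * ‖y‖ := by rw [norm_smul]; simp
    rw [← h2, h1]
    exact norm_sub_le _ _
  rcases le_total ((4 / 3) * ‖x‖ ^ 2) (‖y‖ ^ 2) with hcase | hcase
  · refine le_trans ?_ htri
    have : Real.sqrt (‖x‖ ^ 2 + ‖y‖ ^ 2 / 4) ≤ ‖y‖ := by
      rw [Real.sqrt_le_left (norm_nonneg _)]
      linarith
    linarith
  · set Δ := Real.sqrt (‖x‖ ^ 2 + ‖y‖ ^ 2 / 4) with hΔ
    have hΔ2 : Δ ^ 2 = ‖x‖ ^ 2 + ‖y‖ ^ 2 / 4 := Real.sq_sqrt (by positivity)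
    rcases eq_or_lt_of_le (Real.sqrt_nonneg (‖x‖ ^ 2 + ‖y‖ ^ 2 / 4)) with h0 | h0
    · rw [hΔ, ← h0]; simp only [mul_zero]; positivity
    rw [← hΔ] at h0
    set α := ‖x‖ / Δ with hα
    set β := ‖y‖ / 2 / Δ with hβ
    have hα0 : 0 ≤ α := by positivity
    have hβ0 : 0 ≤ β := by positivity
    have hαβ : α ^ 2 + β ^ 2 = 1 := by
      rw [hα, hβ, div_pow, div_pow, div_pow, ← add_div, hΔ2]
      rw [div_eq_one_iff_eq (by rw [← hΔ2]; positivity)]
      ring
    have h2β : 2 * β ≤ 1 := by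
      have h3 : ‖y‖ ≤ Δ := by
        rw [hΔ]
        apply Real.le_sqrt_of_sq_le
        linarith
      rw [hβ]
      have : 2 * (‖y‖ / 2 / Δ) = ‖y‖ / Δ := by ring
      rw [this]
      exact (div_le_one h0).2 h3
    have hmain : ∀ ε : ℝ, 0 < ε → 2 * Δ ≤ ‖x + y‖ + ‖x - y‖ + 3 * ε := by
      intro ε hε
      obtain ⟨i, hi⟩ := E.exists_ev x ε hε
      obtain ⟨j, hj⟩ := E.exists_ev y ε hε
      obtain ⟨k, l, hk, hl, hkl⟩ := exists_combined hT A hA0 hA i j α β hα0 hβ0 hαβ h2β
      have hkx : E.ev k x = α * E.ev i x := by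
        have : Set.EqOn (E.ev k : X →ₗ[ℝ] ℝ) ((α • E.ev i : X →L[ℝ] ℝ) : X →ₗ[ℝ] ℝ)
            (E.e '' A) := by
          rintro _ ⟨s, hs, rfl⟩
          simp [E.ev_e, hk s hs]
        simpa using LinearMap.eqOn_span this hx
      have hlx : E.ev l x = α * E.ev i x := by
        have : Set.EqOn (E.ev l : X →ₗ[ℝ] ℝ) ((α • E.ev i : X →L[ℝ] ℝ) : X →ₗ[ℝ] ℝ)
            (E.e '' A) := by
          rintro _ ⟨s, hs, rfl⟩
          simp [E.ev_e, hl s hs]
        simpa using LinearMap.eqOn_span this hx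
      have hkly : E.ev k y - E.ev l y = β * E.ev j y := by
        have : Set.EqOn ((E.ev k - E.ev l : X →L[ℝ] ℝ) : X →ₗ[ℝ] ℝ)
            ((β • E.ev j : X →L[ℝ] ℝ) : X →ₗ[ℝ] ℝ) (E.e '' Aᶜ) := by
          rintro _ ⟨s, hs, rfl⟩
          simp [E.ev_e, hkl s hs]
        simpa using LinearMap.eqOn_span this hy
      have h1 := E.ev_le k (x + y)
      have h2 := E.ev_le l (x - y)
      rw [map_add] at h1
      rw [map_sub] at h2
      have h3 : 2 * Δ = 2 * (α * ‖x‖) + β * ‖y‖ := by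
        rw [hα, hβ]
        field_simp
        rw [hΔ2]; ring
      have hα1 : α ≤ 1 := by nlinarith
      have hβ1 : β ≤ 1 := by nlinarith
      have h4 : α * (‖x‖ - ε) ≤ α * E.ev i x := by gcongr
      have h5 : β * (‖y‖ - ε) ≤ β * E.ev j y := by gcongr
      have h6 : α * ε ≤ 1 * ε := by gcongr
      have h7 : β * ε ≤ 1 * ε := by gcongr
      nlinarith
    have hlim : 2 * Δ ≤ ‖x + y‖ + ‖x - y‖ := by
      refine le_of_forall_pos_le_add fun ε hε => ?_
      have := hmain (ε / 3) (by positivity)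
      linarith
    exact hlim

/-- every element of a finite set of vertices lies in a finite ancestor-closed set -/
theorem exists_finite_anc (A0 : Finset (List ℕ)) : ∃ A : Set (List ℕ), A.Finite ∧ [] ∈ A ∧
    (∀ a v, a :: v ∈ A → v ∈ A) ∧ (A0 : Set (List ℕ)) ⊆ A := by
  refine ⟨⋃ s ∈ insert [] A0, {u | u <:+ s}, ?_, ?_, ?_, ?_⟩
  · refine Set.Finite.biUnion (Finset.finite_toSet _) fun s _ => ?_
    have : {u | u <:+ s} = (s.tails.toFinset : Set (List ℕ)) := by
      ext u; simp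
    rw [this]
    exact Finset.finite_toSet _
  · simp only [Set.mem_iUnion]
    exact ⟨[], by simp, by simp⟩
  · intro a v h
    simp only [Set.mem_iUnion, Set.mem_ofPred_eq] at h ⊢
    obtain ⟨s, hs, h⟩ := h
    exact ⟨s, hs, (List.suffix_cons a v).trans h⟩
  · intro s hs
    simp only [Set.mem_iUnion, Set.mem_ofPred_eq]
    exact ⟨s, by simp [Finset.mem_coe.1 hs], List.suffix_refl s⟩

theorem e_eq_zero (hT : IsTestSys tst P D) (E : TreeSpace X tst) {s : List ℕ} (hs : s ∉ D) :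
    E.e s = 0 := by
  by_contra hne
  have hpos : 0 < ‖E.e s‖ := norm_pos_iff.2 hne
  obtain ⟨i, hi⟩ := E.exists_ev (E.e s) (‖E.e s‖) hpos
  rw [E.ev_e, hT.zero i s hs] at hi
  linarith

theorem mem_closure_off (hT : IsTestSys tst P D) (E : TreeSpace X tst) (A : Set (List ℕ))
    (hAf : A.Finite) : ∃ S : Submodule ℝ X, IsClosed (S : Set X) ∧
    FiniteDimensional ℝ (X ⧸ S) ∧
    ∀ y ∈ S, y ∈ closure (Submodule.span ℝ (E.e '' Aᶜ) : Set X) := by
  classical
  -- coordinate functionals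
  have hcoord : ∀ s : List ℕ, ∃ φ : X →L[ℝ] ℝ, ∀ u, s ∈ D → φ (E.e u) = if u = s then 1 else 0 := by
    intro s
    by_cases hs : s ∈ D
    · obtain ⟨i, hi⟩ := hT.single s hs
      refine ⟨E.ev i, fun u _ => ?_⟩
      rw [E.ev_e, hi, Pi.single_apply]
    · exact ⟨0, fun u h => absurd h hs⟩
  choose φ hφ using hcoord
  have : Finite A := hAf
  have : Fintype A := Fintype.ofFinite A
  let Φ : X →L[ℝ] (A → ℝ) := ContinuousLinearMap.pi fun s => φ s.1
  obtain ⟨hcl, hfd⟩ := ker_cof Φ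
  refine ⟨_, hcl, hfd, ?_⟩
  let Q : X →L[ℝ] X := ∑ s : A, (φ s.1).smulRight (E.e s.1)
  have hQ : ∀ x, Q x = ∑ s : A, φ s.1 x • E.e s.1 := by
    intro x
    simp [Q]
  have hkey : ∀ x : X, x - Q x ∈ closure (Submodule.span ℝ (E.e '' Aᶜ) : Set X) := by
    intro x
    have hmaps : Set.MapsTo (fun x => x - Q x) (Submodule.span ℝ (Set.range E.e) : Set X)
        (Submodule.span ℝ (E.e '' Aᶜ) : Set X) := by
      intro z hz
      replace hz : z ∈ Submodule.span ℝ (Set.range E.e) := hz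
      change z - Q z ∈ Submodule.span ℝ (E.e '' Aᶜ)
      induction hz using Submodule.span_induction with
      | mem z hz =>
        obtain ⟨u, rfl⟩ := hz
        by_cases hu : u ∈ A
        · by_cases huD : u ∈ D
          · have : Q (E.e u) = E.e u := by
              rw [hQ, Finset.sum_eq_single ⟨u, hu⟩]
              · rw [hφ u u huD]; simp
              · intro s _ hsu
                by_cases hsD : s.1 ∈ D
                · rw [hφ s.1 u hsD, if_neg, zero_smul]
                  intro h; apply hsu; ext1; exact h.symm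
                · rw [e_eq_zero hT E hsD, smul_zero]
              · intro h; exact absurd (Finset.mem_univ _) h
            simp [this]
          · simp [e_eq_zero hT E huD]
        · have : Q (E.e u) = 0 := by
            rw [hQ]
            refine Finset.sum_eq_zero fun s _ => ?_
            by_cases hsD : s.1 ∈ D
            · rw [hφ s.1 u hsD, if_neg, zero_smul]
              rintro rfl; exact hu s.2
            · rw [e_eq_zero hT E hsD, smul_zero]
          rw [this, sub_zero]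
          exact Submodule.subset_span ⟨u, hu, rfl⟩
      | zero => simp
      | add z w _ _ hz hw =>
        have : z + w - Q (z + w) = (z - Q z) + (w - Q w) := by rw [map_add]; abel
        rw [this]
        exact Submodule.add_mem _ hz hw
      | smul c z _ hz =>
        have : c • z - Q (c • z) = c • (z - Q z) := by rw [map_smul, smul_sub]
        rw [this]
        exact Submodule.smul_mem _ _ hz
    have hcont : Continuous fun x => x - Q x := by fun_prop
    exact map_mem_closure (f := fun x => x - Q x) hcont (E.dense x) hmaps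
  intro y hy
  have hy0 : Q y = 0 := by
    rw [hQ]
    refine Finset.sum_eq_zero fun s _ => ?_
    have : Φ y s = 0 := by
      have h : Φ y = 0 := hy
      rw [h]; rfl
    have h2 : φ s.1 y = 0 := this
    rw [h2, zero_smul]
  have := hkey y
  rwa [hy0, sub_zero] at this

theorem goodMod (hT : IsTestSys tst P D) (E : TreeSpace X tst) : GoodMod X := by
  classical
  intro x η hη
  obtain ⟨x', hx', hxx⟩ := Metric.mem_closure_iff.1 (E.dense x) (η / 4) (by positivity)
  have hx'2 : ∃ A0 : Finset (List ℕ), x' ∈ Submodule.span ℝ (E.e '' (A0 : Set (List ℕ))) := by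
    have h := hx'
    rw [SetLike.mem_coe, ← Set.image_univ] at h
    obtain ⟨T, hT1, hT2⟩ := Submodule.mem_span_finite_of_mem_span h
    obtain ⟨A0, hA0, rfl⟩ := Finset.subset_set_image_iff.1 hT1
    exact ⟨A0, by simpa using hT2⟩
  obtain ⟨A0, hA0⟩ := hx'2
  obtain ⟨A, hAf, hA1, hA2, hA3⟩ := exists_finite_anc A0
  have hx'A : x' ∈ Submodule.span ℝ (E.e '' A) := Submodule.span_mono (Set.image_mono hA3) hA0
  obtain ⟨S, hcl, hfd, hS⟩ := mem_closure_off hT E A hAf
  refine ⟨S, hcl, hfd, fun y hy => ?_⟩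
  have hstar : 2 * Real.sqrt (‖x'‖ ^ 2 + ‖y‖ ^ 2 / 4) ≤ ‖x' + y‖ + ‖x' - y‖ := by
    have hclosed : IsClosed {y : X | 2 * Real.sqrt (‖x'‖ ^ 2 + ‖y‖ ^ 2 / 4) ≤
        ‖x' + y‖ + ‖x' - y‖} := by
      apply isClosed_le <;> fun_prop
    exact closure_minimal (fun z hz => star_finite hT E A hA1 hA2 x' z hx'A hz) hclosed (hS y hy)
  have hd : ‖x - x'‖ < η / 4 := by rwa [← dist_eq_norm]
  have h1 : ‖x' + y‖ ≤ ‖x + y‖ + ‖x - x'‖ := by
    have : x' + y = (x + y) - (x - x') := by abel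
    rw [this]; exact norm_sub_le _ _
  have h2 : ‖x' - y‖ ≤ ‖x - y‖ + ‖x - x'‖ := by
    have : x' - y = (x - y) - (x - x') := by abel
    rw [this]; exact norm_sub_le _ _
  have h3 : Real.sqrt (‖x‖ ^ 2 + ‖y‖ ^ 2 / 4) ≤ Real.sqrt (‖x'‖ ^ 2 + ‖y‖ ^ 2 / 4) + ‖x - x'‖ := by
    have hxn : ‖x‖ ≤ ‖x'‖ + ‖x - x'‖ := by
      have : x = x' + (x - x') := by abel
      calc ‖x‖ = ‖x' + (x - x')‖ := by rw [← this]
        _ ≤ _ := norm_add_le _ _
    rw [Real.sqrt_le_left (by positivity)]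
    have h4 : ‖x'‖ ≤ Real.sqrt (‖x'‖ ^ 2 + ‖y‖ ^ 2 / 4) := by
      apply Real.le_sqrt_of_sq_le
      have : 0 ≤ ‖y‖ ^ 2 / 4 := by positivity
      linarith
    have h5 : Real.sqrt (‖x'‖ ^ 2 + ‖y‖ ^ 2 / 4) ^ 2 = ‖x'‖ ^ 2 + ‖y‖ ^ 2 / 4 :=
      Real.sq_sqrt (by positivity)
    have h6 : ‖x‖ ^ 2 ≤ (‖x'‖ + ‖x - x'‖) ^ 2 := by gcongr
    nlinarith [norm_nonneg (x - x'), norm_nonneg x']
  linarith

/-- path sum of the coordinate vectors -/
noncomputable def pathSum (e : List ℕ → X) : List ℕ → X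
  | [] => e []
  | a :: v => pathSum e v + e (a :: v)

theorem ev_pathSum (E : TreeSpace X tst) (i : ι) (v : List ℕ) :
    E.ev i (pathSum E.e v) = pathPotential (tst i) v := by
  induction v with
  | nil => simp [pathSum, pathPotential, E.ev_e]
  | cons a v ih => simp [pathSum, pathPotential, E.ev_e, ih]

theorem norm_le_of_ev (E : TreeSpace X tst) (x : X) (c : ℝ) (h : ∀ i, E.ev i x ≤ c) :
    ‖x‖ ≤ c := by
  refine le_of_forall_pos_le_add fun ε hε => ?_
  obtain ⟨i, hi⟩ := E.exists_ev x ε hε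
  linarith [h i]

theorem norm_pathSum_le (hT : IsTestSys tst P D) (E : TreeSpace X tst) (v : List ℕ)
    (hv : v ∈ P) : ‖pathSum E.e v‖ ≤ 1 := by
  refine norm_le_of_ev E _ _ fun i => ?_
  rw [ev_pathSum]
  exact (abs_le.1 (hT.bound i v hv)).2

theorem one_le_norm_e (hT : IsTestSys tst P D) (E : TreeSpace X tst) (s : List ℕ)
    (hs : s ∈ D) : 1 ≤ ‖E.e s‖ := by
  obtain ⟨i, hi⟩ := hT.single s hs
  have := E.ev_le i (E.e s)
  rw [E.ev_e, hi] at this
  simpa using this

theorem siblings_upper (hT : IsTestSys tst P D) (E : TreeSpace X tst) (v : List ℕ)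
    (A : Finset ℕ) (c : ℕ → ℝ) :
    ‖∑ a ∈ A, c a • E.e (a :: v)‖ ≤ 1 * Real.sqrt (∑ a ∈ A, c a ^ 2) := by
  rw [one_mul]
  refine norm_le_of_ev E _ _ fun i => ?_
  have h1 : E.ev i (∑ a ∈ A, c a • E.e (a :: v)) = ∑ a ∈ A, c a * tst i (a :: v) := by
    simp [E.ev_e]
  rw [h1]
  have h2 := Finset.sum_mul_sq_le_sq_mul_sq A c (fun a => tst i (a :: v))
  have h3 := hT.sibling i v A
  have h4 : 0 ≤ ∑ a ∈ A, c a ^ 2 := Finset.sum_nonneg fun _ _ => sq_nonneg _
  apply Real.le_sqrt_of_sq_le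
  nlinarith

/-- one extension step of the tree of path sums -/
theorem exists_child (hT : IsTestSys tst P D) (E : TreeSpace X tst) (v : List ℕ)
    (hvD : ∀ a, a :: v ∈ D) (S : Submodule ℝ X) (hcl : IsClosed (S : Set X))
    (hfd : FiniteDimensional ℝ (X ⧸ S)) (η : ℝ) (hη : 0 < η) :
    ∃ a : ℕ, 1 ≤ ‖pathSum E.e (a :: v) - pathSum E.e v‖ ∧
      ∃ u ∈ S, ‖pathSum E.e (a :: v) - pathSum E.e v - u‖ ≤ η := by
  obtain ⟨a, u, hu, hau⟩ := (exists_near_of_upper_two (fun a => E.e (a :: v)) 1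
    (siblings_upper hT E v) S hcl hfd η hη).exists
  refine ⟨a, ?_, u, hu, ?_⟩
  · simp only [pathSum, add_sub_cancel_left]
    exact one_le_norm_e hT E _ (hvD a)
  · simp only [pathSum, add_sub_cancel_left]
    exact hau.le

theorem not_isAUCNorm_of_univ (hT : IsTestSys tst P D) (E : TreeSpace X tst)
    (hP : ∀ s, s ∈ P) (hD : ∀ a v, a :: v ∈ D) (N : X → ℝ) (hN : IsEquivNorm N) :
    ¬ IsAUCNorm N := by
  refine not_isAUCNorm_of_trees (fun _ x => ∃ v, x = pathSum E.e v) 1 1 1 one_pos one_pos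
    ?_ ?_ ?_ N hN
  · rintro _ _ ⟨v, rfl⟩
    exact norm_pathSum_le hT E v (hP v)
  · rintro k _ ⟨v, rfl⟩ S hcl hfd η hη
    obtain ⟨a, h1, h2⟩ := exists_child hT E v (fun a => hD a v) S hcl hfd η hη
    exact ⟨_, ⟨a :: v, rfl⟩, h1, h2⟩
  · intro _
    refine ⟨_, ⟨[0], rfl⟩, ?_⟩
    obtain ⟨i, hi⟩ := hT.single [0] (hD 0 [])
    have := E.ev_le i (pathSum E.e [0])
    rw [ev_pathSum, hi] at this
    simpa [pathPotential] using this

end space

/-- if the given norm is not AUC the space is infinite dimensional -/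
theorem not_finiteDimensional {X : Type*} [NormedAddCommGroup X] [NormedSpace ℝ X]
    (h : ¬ IsAUCNorm (fun x : X => ‖x‖)) : ¬ FiniteDimensional ℝ X := by
  intro hfd
  apply h
  intro t _
  refine ⟨1, one_pos, fun x _ => ⟨{0}, ⟨⊥, by simp, isClosed_singleton, inferInstance⟩, ?_⟩⟩
  intro y hy hN
  rw [Set.mem_singleton_iff] at hy
  simp [hy] at hN

end Crest.Agent.AUC.Tree
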