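import Mathlib
import Crest.Prelude.Def_DaugavetL1
import Crest.Agent.AUC.Tree

/-! Weak neighbourhoods in spaces with the Daugavet property. -/

set_option autoImplicit false
open Filter Topology

namespace Crest.Agent.AUC.Daug

open Crest.AnalysisR.L1Subspace Crest.Agent.AUC.Tree

variable {X : Type*} [NormedAddCommGroup X] [NormedSpace ℝ X]

theorem slice_ne (hD : HasDaugavetProperty X) (ψ : X →L[ℝ] ℝ) (w0 : X) (hw0 : ‖w0‖ ≤ 1) (v : X)
    (hv : v ≠ 0) (ε : ℝ) (hε : 0 < ε) :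
    ∃ u : X, ‖u‖ ≤ 1 ∧ ψ w0 - ε < ψ u ∧ ‖v‖ + 1 - ε ≤ ‖v + u‖ := by
  have hv0 : 0 < ‖v‖ := norm_pos_iff.2 hv
  rcases eq_or_ne ψ 0 with rfl | hψ
  · refine ⟨(‖v‖)⁻¹ • v, ?_, ?_, ?_⟩
    · rw [norm_smul, norm_inv, norm_norm, inv_mul_cancel₀ hv0.ne']
    · simpa using hε
    · have : v + (‖v‖)⁻¹ • v = (1 + (‖v‖)⁻¹) • v := by rw [add_smul, one_smul]
      rw [this, norm_smul, Real.norm_of_nonneg (by positivity), add_mul,
        inv_mul_cancel₀ hv0.ne']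
      linarith
  have hψ0 : 0 < ‖ψ‖ := norm_pos_iff.2 hψ
  set φ : X →L[ℝ] ℝ := (‖ψ‖)⁻¹ • ψ with hφ
  have hφ1 : ‖φ‖ = 1 := by
    rw [hφ, norm_smul, norm_inv, norm_norm, inv_mul_cancel₀ hψ0.ne']
  have hφψ : ∀ z, ψ z = ‖ψ‖ * φ z := by
    intro z
    rw [hφ]
    change ψ z = ‖ψ‖ * ((‖ψ‖)⁻¹ * ψ z)
    rw [mul_inv_cancel_left₀ hψ0.ne']
  have hT := hD φ v
  rw [ContinuousLinearMap.norm_smulRight_apply, hφ1, one_mul] at hT
  set ε' : ℝ := min (ε / 2) (ε * ‖v‖ / (2 * ‖ψ‖)) with hε'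
  have hε'0 : 0 < ε' := by positivity
  obtain ⟨u, hu1, hu2⟩ := ContinuousLinearMap.exists_lt_apply_of_lt_opNorm
    (ContinuousLinearMap.id ℝ X + φ.smulRight v) (r := 1 + ‖v‖ - ε') (by rw [hT]; linarith)
  -- reduce to the case of nonnegative φ u
  obtain ⟨u, hu1, hu2, hu3⟩ : ∃ u : X, ‖u‖ ≤ 1 ∧ 1 + ‖v‖ - ε' < ‖u + φ u • v‖ ∧ 0 ≤ φ u := by
    rcases le_total 0 (φ u) with h | h
    · exact ⟨u, hu1.le, hu2, h⟩
    · refine ⟨-u, by rw [norm_neg]; exact hu1.le, ?_, by rw [map_neg]; linarith⟩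
      have : -u + φ (-u) • v = -(u + φ u • v) := by
        rw [map_neg, neg_smul, neg_add]
      rw [this, norm_neg]
      exact hu2
  have hφu : φ u ≤ 1 := by
    have := φ.le_opNorm u
    rw [hφ1, one_mul] at this
    exact (le_abs_self _).trans (this.trans hu1)
  have h1 : ‖u + φ u • v‖ ≤ 1 + φ u * ‖v‖ := by
    refine (norm_add_le _ _).trans ?_
    rw [norm_smul, Real.norm_of_nonneg hu3]
    linarith
  have h2 : (1 - φ u) * ‖v‖ < ε' := by nlinarith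
  refine ⟨u, hu1, ?_, ?_⟩
  · have h3 : (1 - φ u) * ‖v‖ < ε * ‖v‖ / (2 * ‖ψ‖) := h2.trans_le (min_le_right _ _)
    have h4 : (1 - φ u) < ε / (2 * ‖ψ‖) := by
      have : ε * ‖v‖ / (2 * ‖ψ‖) = ε / (2 * ‖ψ‖) * ‖v‖ := by ring
      rw [this] at h3
      exact lt_of_mul_lt_mul_right h3 hv0.le
    have h5 : ‖ψ‖ * (1 - φ u) < ε := by
      calc ‖ψ‖ * (1 - φ u) < ‖ψ‖ * (ε / (2 * ‖ψ‖)) := by gcongr
        _ = ε / 2 := by field_simp
        _ < ε := by linarith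
    have h6 : ψ w0 ≤ ‖ψ‖ := by
      refine (le_abs_self _).trans ((ψ.le_opNorm w0).trans ?_)
      exact mul_le_of_le_one_right hψ0.le hw0
    rw [hφψ u]
    nlinarith
  · have h3 : ‖u + φ u • v‖ ≤ ‖v + u‖ + (1 - φ u) * ‖v‖ := by
      have : u + φ u • v = (v + u) - (1 - φ u) • v := by
        rw [sub_smul, one_smul]; abel
      rw [this]
      refine (norm_sub_le _ _).trans ?_
      rw [norm_smul, Real.norm_of_nonneg (by linarith)]
    have h4 : ε' ≤ ε / 2 := min_le_left _ _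
    linarith

theorem slice (hD : HasDaugavetProperty X) (hnt : ∃ z : X, z ≠ 0) (ψ : X →L[ℝ] ℝ) (w0 : X)
    (hw0 : ‖w0‖ ≤ 1) (v : X) (ε : ℝ) (hε : 0 < ε) :
    ∃ u : X, ‖u‖ ≤ 1 ∧ ψ w0 - ε < ψ u ∧ ‖v‖ + 1 - ε ≤ ‖v + u‖ := by
  rcases eq_or_ne v 0 with rfl | hv
  · obtain ⟨z, hz⟩ := hnt
    obtain ⟨u, h1, h2, h3⟩ := slice_ne hD ψ w0 hw0 z hz ε hε
    refine ⟨u, h1, h2, ?_⟩
    rw [norm_zero, zero_add, zero_add]
    have := norm_add_le z u
    linarith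
  · exact slice_ne hD ψ w0 hw0 v hv ε hε

section

variable {Y : Type*} [NormedAddCommGroup Y] [NormedSpace ℝ Y]

/-- points of the ball at which far away points with nearby image exist -/
def Good (Φ : X →L[ℝ] Y) (r : ℝ) : Set X :=
  {g | ‖g‖ ≤ 1 ∧ ∀ (v : X) (ε : ℝ), 0 < ε →
    ∃ w : X, ‖w‖ ≤ 1 ∧ ‖Φ w - Φ g‖ ≤ r ∧ ‖v‖ + 1 - ε ≤ ‖v + w‖}

theorem convex_Good (Φ : X →L[ℝ] Y) (r : ℝ) : Convex ℝ (Good Φ r) := by
  rintro g1 ⟨hg1, h1⟩ g2 ⟨hg2, h2⟩ a b ha hb hab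
  have hball : ∀ w1 w2 : X, ‖w1‖ ≤ 1 → ‖w2‖ ≤ 1 → ‖a • w1 + b • w2‖ ≤ 1 := by
    intro w1 w2 hw1 hw2
    refine (norm_add_le _ _).trans ?_
    rw [norm_smul, norm_smul, Real.norm_of_nonneg ha, Real.norm_of_nonneg hb]
    nlinarith
  -- scaling lemma
  have hscale : ∀ (v w : X) (c ε : ℝ), 0 ≤ c → c ≤ 1 → ‖w‖ ≤ 1 → ‖v‖ + 1 - ε ≤ ‖v + w‖ →
      ‖v‖ + c - ε ≤ ‖v + c • w‖ := by
    intro v w c ε hc hc1 hw h
    have h3 : ‖v + w‖ ≤ ‖v + c • w‖ + (1 - c) := by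
      have : v + w = (v + c • w) + (1 - c) • w := by rw [sub_smul, one_smul]; abel
      rw [this]
      refine (norm_add_le _ _).trans ?_
      rw [norm_smul, Real.norm_of_nonneg (by linarith)]
      have : (1 - c) * ‖w‖ ≤ (1 - c) := mul_le_of_le_one_right (by linarith) hw
      linarith
    linarith
  refine ⟨hball g1 g2 hg1 hg2, fun v ε hε => ?_⟩
  obtain ⟨w1, hw1, hΦ1, hn1⟩ := h1 v (ε / 2) (by positivity)
  have hn1' := hscale v w1 a (ε / 2) ha (by linarith) hw1 hn1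
  obtain ⟨w2, hw2, hΦ2, hn2⟩ := h2 (v + a • w1) (ε / 2) (by positivity)
  have hn2' := hscale (v + a • w1) w2 b (ε / 2) hb (by linarith) hw2 hn2
  refine ⟨a • w1 + b • w2, hball w1 w2 hw1 hw2, ?_, ?_⟩
  · have : Φ (a • w1 + b • w2) - Φ (a • g1 + b • g2) =
        a • (Φ w1 - Φ g1) + b • (Φ w2 - Φ g2) := by
      simp only [map_add, map_smul, smul_sub]; abel
    rw [this]
    refine (norm_add_le _ _).trans ?_
    rw [norm_smul, norm_smul, Real.norm_of_nonneg ha, Real.norm_of_nonneg hb]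
    calc a * ‖Φ w1 - Φ g1‖ + b * ‖Φ w2 - Φ g2‖ ≤ a * r + b * r := by gcongr
      _ = r := by rw [← add_mul, hab, one_mul]
  · rw [← add_assoc]
    linarith

theorem dent_mem_Good (hD : HasDaugavetProperty X) (hnt : ∃ z : X, z ≠ 0) (Φ : X →L[ℝ] Y) (r : ℝ)
    (w0 : X) (hw0 : ‖w0‖ ≤ 1) (ψ : X →L[ℝ] ℝ) (δ : ℝ) (hδ : 0 < δ)
    (h : ∀ w, ‖w‖ ≤ 1 → ψ w0 - δ < ψ w → ‖Φ w - Φ w0‖ ≤ r) : w0 ∈ Good Φ r := by
  refine ⟨hw0, fun v ε hε => ?_⟩
  obtain ⟨u, h1, h2, h3⟩ := slice hD hnt ψ w0 hw0 v (min ε δ) (lt_min hε hδ)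
  refine ⟨u, h1, h u h1 ?_, ?_⟩
  · have := min_le_right ε δ
    linarith
  · have := min_le_left ε δ
    linarith

end

theorem exists_Good_near {Y : Type*} [NormedAddCommGroup Y] [InnerProductSpace ℝ Y]
    [CompleteSpace Y] (hD : HasDaugavetProperty X) (hnt : ∃ z : X, z ≠ 0) (Φ : X →L[ℝ] Y) (r : ℝ)
    (hr : 0 < r) (x : X) (hx : ‖x‖ ≤ 1) : ∃ g ∈ Good Φ r, ‖Φ g - Φ x‖ < r := by
  by_contra hcon
  push Not at hcon
  have hconv : Convex ℝ (closure (Φ '' Good Φ r)) := by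
    apply Convex.closure
    exact (convex_Good Φ r).linear_image (Φ : X →ₗ[ℝ] Y)
  have hnot : Φ x ∉ closure (Φ '' Good Φ r) := by
    rw [Metric.mem_closure_iff]
    push Not
    refine ⟨r, hr, ?_⟩
    rintro _ ⟨g, hg, rfl⟩
    rw [dist_comm, dist_eq_norm]
    exact hcon g hg
  obtain ⟨f, a, hfa, hfx⟩ := geometric_hahn_banach_closed_point hconv isClosed_closure hnot
  set n : Y := (InnerProductSpace.toDual ℝ Y).symm f with hn
  have hfn : ∀ y, f y = inner ℝ n y := fun y =>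
    (InnerProductSpace.toDual_symm_apply (x := y) (y := f)).symm
  set M : ℝ := ‖Φ‖ with hM
  have hM0 : 0 ≤ M := norm_nonneg _
  set gap : ℝ := f (Φ x) - a with hgap
  have hgap0 : 0 < gap := by rw [hgap]; linarith
  set T : ℝ := (r ^ 2 / 4 + 4 * M ^ 2) / (2 * gap) + 1 with hT
  have hT0 : 0 < T := by positivity
  have hTgap : (r ^ 2 / 4 + 4 * M ^ 2) < 2 * T * gap := by
    rw [hT]
    have : 2 * ((r ^ 2 / 4 + 4 * M ^ 2) / (2 * gap) + 1) * gap =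
        (r ^ 2 / 4 + 4 * M ^ 2) + 2 * gap := by field_simp
    rw [this]; linarith
  set z : Y := Φ x - T • n with hz
  have hbd : ∀ w : X, ‖w‖ ≤ 1 → ‖Φ w‖ ≤ M := fun w hw =>
    (Φ.le_opNorm w).trans (mul_le_of_le_one_right hM0 hw)
  set A : Set ℝ := {s | ∃ w : X, ‖w‖ ≤ 1 ∧ s = ‖Φ w - z‖ ^ 2} with hA
  have hAbdd : BddAbove A := by
    refine ⟨(M + ‖z‖) ^ 2, ?_⟩
    rintro _ ⟨w, hw, rfl⟩
    have h1 : ‖Φ w - z‖ ≤ M + ‖z‖ := (norm_sub_le _ _).trans (by gcongr; exact hbd w hw)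
    exact pow_le_pow_left₀ (norm_nonneg _) h1 2
  have hAne : A.Nonempty := ⟨_, x, hx, rfl⟩
  set s : ℝ := sSup A with hs
  have hle : ∀ w : X, ‖w‖ ≤ 1 → ‖Φ w - z‖ ^ 2 ≤ s := fun w hw => le_csSup hAbdd ⟨w, hw, rfl⟩
  obtain ⟨_, ⟨w0, hw0, rfl⟩, hw0s⟩ := exists_lt_of_lt_csSup hAne
    (show s - r ^ 2 / 4 < sSup A by rw [← hs]; linarith [show 0 < r ^ 2 / 4 by positivity])
  have hgood : w0 ∈ Good Φ r := by
    refine dent_mem_Good hD hnt Φ r w0 hw0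
      ((innerSL ℝ (Φ w0 - z)).comp Φ) (r ^ 2 / 4) (by positivity) fun w hw hψ => ?_
    change inner ℝ (Φ w0 - z) (Φ w0) - r ^ 2 / 4 < inner ℝ (Φ w0 - z) (Φ w) at hψ
    have e1 : ‖Φ w - Φ w0‖ ^ 2 = ‖Φ w - z‖ ^ 2 + ‖Φ w0 - z‖ ^ 2 -
        2 * inner ℝ (Φ w0 - z) (Φ w - z) := by
      have : Φ w - Φ w0 = (Φ w - z) - (Φ w0 - z) := by abel
      rw [this, norm_sub_sq_real, real_inner_comm (Φ w - z) (Φ w0 - z)]; ring
    have e2 : inner ℝ (Φ w0 - z) (Φ w - z) =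
        inner ℝ (Φ w0 - z) (Φ w) - inner ℝ (Φ w0 - z) z := inner_sub_right _ _ _
    have e3 : ‖Φ w0 - z‖ ^ 2 = inner ℝ (Φ w0 - z) (Φ w0) - inner ℝ (Φ w0 - z) z := by
      rw [← inner_sub_right, real_inner_self_eq_norm_sq]
    have e4 := hle w hw
    have e5 : ‖Φ w - Φ w0‖ ^ 2 ≤ r ^ 2 := by
      rw [e1, e2]
      nlinarith
    exact le_of_sq_le_sq e5 hr.le
  have h1 := hfa _ (subset_closure ⟨w0, hgood, rfl⟩)
  have h2 := hle x hx
  have h3 : ‖Φ x - z‖ ^ 2 = T ^ 2 * ‖n‖ ^ 2 := by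
    rw [hz, sub_sub_cancel, norm_smul, mul_pow, Real.norm_of_nonneg hT0.le]
  have h4 : ‖Φ w0 - z‖ ^ 2 = ‖Φ w0 - Φ x‖ ^ 2 + 2 * T * (f (Φ w0) - f (Φ x)) +
      T ^ 2 * ‖n‖ ^ 2 := by
    have : Φ w0 - z = (Φ w0 - Φ x) + T • n := by rw [hz]; abel
    rw [this, norm_add_sq_real, norm_smul, mul_pow, Real.norm_of_nonneg hT0.le,
      real_inner_smul_right, hfn, hfn, ← inner_sub_right, real_inner_comm n]
    ring
  have h5 : ‖Φ w0 - Φ x‖ ^ 2 ≤ 4 * M ^ 2 := by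
    have : ‖Φ w0 - Φ x‖ ≤ 2 * M := by
      have e1 := hbd w0 hw0
      have e2 := hbd x hx
      have e3 := norm_sub_le (Φ w0) (Φ x)
      linarith
    calc ‖Φ w0 - Φ x‖ ^ 2 ≤ (2 * M) ^ 2 := pow_le_pow_left₀ (norm_nonneg _) this 2
      _ = 4 * M ^ 2 := by ring
  have h6 : 2 * T * (f (Φ x) - f (Φ w0)) < 2 * T * gap := by nlinarith
  have h7 : f (Φ x) - f (Φ w0) < gap := lt_of_mul_lt_mul_left h6 (by positivity)
  rw [hgap] at h7
  linarith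

/-- In a space with the Daugavet property every weak neighbourhood of a point of the ball contains
points of the ball far away from a given point. -/
theorem exists_far (hD : HasDaugavetProperty X) (hnt : ∃ z : X, z ≠ 0) (S : Submodule ℝ X)
    (hcl : IsClosed (S : Set X)) (hfd : FiniteDimensional ℝ (X ⧸ S)) (x : X) (hx : ‖x‖ ≤ 1)
    (v : X) (η : ℝ) (hη : 0 < η) :
    ∃ w : X, ‖w‖ ≤ 1 ∧ (∃ u ∈ S, ‖w - x - u‖ ≤ η) ∧ ‖v‖ + 1 - η ≤ ‖v + w‖ := by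
  have := hcl
  let e : (X ⧸ S) ≃L[ℝ] EuclideanSpace ℝ (Fin (Module.finrank ℝ (X ⧸ S))) := toEuclidean
  let Φ : X →L[ℝ] EuclideanSpace ℝ (Fin (Module.finrank ℝ (X ⧸ S))) :=
    (e : (X ⧸ S) →L[ℝ] _).comp S.mkQL
  set C : ℝ := ‖(e.symm : EuclideanSpace ℝ (Fin (Module.finrank ℝ (X ⧸ S))) →L[ℝ] (X ⧸ S))‖
    with hC
  have hC0 : 0 ≤ C := by rw [hC]; exact ContinuousLinearMap.opNorm_nonneg _
  set r : ℝ := η / (4 * (C + 1)) with hr
  have hr0 : 0 < r := by positivity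
  obtain ⟨g, ⟨hg1, hg2⟩, hgx⟩ := exists_Good_near hD hnt Φ r hr0 x hx
  obtain ⟨w, hw1, hw2, hw3⟩ := hg2 v η hη
  refine ⟨w, hw1, ?_, hw3⟩
  have h1 : ‖Φ (w - x)‖ ≤ 2 * r := by
    have : Φ (w - x) = (Φ w - Φ g) + (Φ g - Φ x) := by rw [map_sub]; abel
    rw [this]
    refine (norm_add_le _ _).trans ?_
    linarith
  have h2 : ‖S.mkQ (w - x)‖ ≤ C * (2 * r) := by
    have : S.mkQ (w - x) = (e.symm : _ →L[ℝ] (X ⧸ S)) (Φ (w - x)) := by
      change _ = e.symm (e (S.mkQ (w - x)))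
      rw [e.symm_apply_apply]
    rw [this]
    refine (ContinuousLinearMap.le_opNorm _ _).trans ?_
    gcongr
  have h3 : C * (2 * r) < η := by
    rw [hr]
    have h4 : C * (2 * (η / (4 * (C + 1)))) = (C / (C + 1)) * (η / 2) := by
      field_simp; ring
    rw [h4]
    have h5 : C / (C + 1) ≤ 1 := by rw [div_le_one (by positivity)]; linarith
    nlinarith
  obtain ⟨m, hm, hm2⟩ := Submodule.Quotient.norm_mk_lt (S.mkQ (w - x))
    (ε := η - ‖S.mkQ (w - x)‖) (by linarith)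
  refine ⟨w - x - m, ?_, ?_⟩
  · have : (S.mkQ (w - x - m)) = 0 := by
      rw [map_sub, sub_eq_zero]
      exact hm.symm
    rwa [← LinearMap.mem_ker, Submodule.ker_mkQ] at this
  · have : w - x - (w - x - m) = m := by abel
    rw [this]
    linarith

/-- the direction for the upper bounds -/
theorem exists_direction (hD : HasDaugavetProperty X) (S : Submodule ℝ X)
    (hcl : IsClosed (S : Set X)) (hfd : FiniteDimensional ℝ (X ⧸ S)) (x : X) (hx : ‖x‖ = 1)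
    (η : ℝ) (hη : 0 < η) :
    ∃ y ∈ S, ‖y‖ = 1 ∧ ∀ t : ℝ, 0 < t →
      ‖x + t • y‖ ≤ |1 - t / 2| + t / 2 + t * η ∧ ‖x - t • y‖ ≤ 1 + t + t * η := by
  have hnt : ∃ z : X, z ≠ 0 := ⟨x, by rw [← norm_pos_iff, hx]; exact one_pos⟩
  set ε : ℝ := min (1 / 2) (η / 4) with hε
  have hε0 : 0 < ε := by positivity
  have hε1 : ε ≤ 1 / 2 := min_le_left _ _
  have hε2 : ε ≤ η / 4 := min_le_right _ _
  obtain ⟨w, hw1, ⟨u, huS, hu⟩, hw3⟩ := exists_far hD hnt S hcl hfd x hx.le (-x) ε hε0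
  rw [norm_neg, hx] at hw3
  have hwx : -x + w = w - x := by abel
  rw [hwx] at hw3
  have hwx2 : ‖w - x‖ ≤ 2 := by
    refine (norm_sub_le _ _).trans ?_
    linarith
  -- the candidate
  set q : X := (1 / 2 : ℝ) • (w - x) with hq
  have hqu : ‖q - (1 / 2 : ℝ) • u‖ ≤ ε / 2 := by
    have : q - (1 / 2 : ℝ) • u = (1 / 2 : ℝ) • (w - x - u) := by rw [hq, ← smul_sub]
    rw [this, norm_smul]; norm_num; linarith
  set p : X := (1 / 2 : ℝ) • u with hp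
  have hpS : p ∈ S := S.smul_mem _ huS
  have hqn1 : ‖q‖ ≤ 1 := by
    rw [hq, norm_smul]; norm_num; linarith
  have hqn2 : 1 - ε / 2 ≤ ‖q‖ := by
    rw [hq, norm_smul]; norm_num; linarith
  have hpn1 : ‖p‖ ≤ 1 + ε / 2 := by
    have : p = q - (q - p) := by abel
    rw [this]; refine (norm_sub_le _ _).trans ?_; linarith
  have hpn2 : 1 - ε ≤ ‖p‖ := by
    have : ‖q‖ ≤ ‖p‖ + ‖q - p‖ := by
      have : q = p + (q - p) := by abel
      calc ‖q‖ = ‖p + (q - p)‖ := by rw [← this]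
        _ ≤ _ := norm_add_le _ _
    linarith
  have hp0 : 0 < ‖p‖ := by linarith
  set y : X := (‖p‖)⁻¹ • p with hy
  have hyn : ‖y‖ = 1 := by
    rw [hy, norm_smul, norm_inv, norm_norm, inv_mul_cancel₀ hp0.ne']
  have hyp : ‖y - p‖ ≤ ε := by
    have h1 : y - p = ((‖p‖)⁻¹ - 1) • p := by rw [hy, sub_smul, one_smul]
    have h2 : ((‖p‖)⁻¹ - 1) * ‖p‖ = 1 - ‖p‖ := by field_simp
    rw [h1, norm_smul, Real.norm_eq_abs]
    have h3 : |(‖p‖)⁻¹ - 1| * ‖p‖ = |1 - ‖p‖| := by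
      rw [← h2, abs_mul, abs_of_pos hp0]
    rw [h3, abs_le]
    constructor <;> linarith
  have hyq : ‖y - q‖ ≤ η := by
    have : y - q = (y - p) - (q - p) := by abel
    rw [this]
    refine (norm_sub_le _ _).trans ?_
    linarith
  refine ⟨y, S.smul_mem _ hpS, hyn, fun t ht => ⟨?_, ?_⟩⟩
  · have h1 : x + t • y = ((1 - t / 2) • x + (t / 2) • w) + t • (y - q) := by
      rw [hq]
      simp only [smul_sub, smul_smul, sub_smul, one_smul]
      have : t * (1 / 2) = t / 2 := by ring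
      rw [this]
      abel
    rw [h1]
    refine (norm_add_le _ _).trans ?_
    refine add_le_add ((norm_add_le _ _).trans ?_) ?_
    · rw [norm_smul, norm_smul, hx, mul_one, Real.norm_eq_abs,
        Real.norm_of_nonneg (show 0 ≤ t / 2 by positivity)]
      have : t / 2 * ‖w‖ ≤ t / 2 := mul_le_of_le_one_right (by positivity) hw1
      linarith
    · rw [norm_smul, Real.norm_of_nonneg ht.le]
      gcongr
  · have h1 : x - t • y = ((1 + t / 2) • x - (t / 2) • w) - t • (y - q) := by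
      rw [hq]
      simp only [smul_sub, smul_smul, add_smul, one_smul]
      have : t * (1 / 2) = t / 2 := by ring
      rw [this]
      abel
    rw [h1]
    refine (norm_sub_le _ _).trans ?_
    refine add_le_add ((norm_sub_le _ _).trans ?_) ?_
    · rw [norm_smul, norm_smul, hx, mul_one, Real.norm_of_nonneg (show 0 ≤ 1 + t / 2 by positivity),
        Real.norm_of_nonneg (show 0 ≤ t / 2 by positivity)]
      have : t / 2 * ‖w‖ ≤ t / 2 := mul_le_of_le_one_right (by positivity) hw1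
      linarith
    · rw [norm_smul, Real.norm_of_nonneg ht.le]
      gcongr

theorem not_auc (hD : HasDaugavetProperty X) (hnt : ∃ z : X, z ≠ 0) (N : X → ℝ)
    (hN : IsEquivNorm N) : ¬ IsAUCNorm N := by
  refine not_isAUCNorm_of_trees (fun _ x => ‖x‖ ≤ 1) 1 (1 / 2) 1 (by norm_num) one_pos ?_ ?_ ?_ N hN
  · exact fun _ _ h => h
  · intro k x hx S hcl hfd η hη
    obtain ⟨w, hw1, ⟨u, huS, hu⟩, hw3⟩ := exists_far hD hnt S hcl hfd x hx (-x) (min η (1 / 2))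
      (by positivity)
    refine ⟨w, hw1, ?_, u, huS, hu.trans (min_le_left _ _)⟩
    have hwx : -x + w = w - x := by abel
    rw [hwx, norm_neg] at hw3
    have := min_le_right η (1 / 2)
    linarith [norm_nonneg x]
  · intro _
    obtain ⟨z, hz⟩ := hnt
    have hz0 : 0 < ‖z‖ := norm_pos_iff.2 hz
    have : ‖(‖z‖)⁻¹ • z‖ = 1 := by
      rw [norm_smul, norm_inv, norm_norm, inv_mul_cancel₀ hz0.ne']
    exact ⟨(‖z‖)⁻¹ • z, this.le, this.ge⟩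

end Crest.Agent.AUC.Daug
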