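import Mathlib
import Crest.Prelude.Def_AsymptoticConvexity
import Crest.Prelude.Def_Diamond
import Crest.Agent.AUC.Tree

/-! Diamond graphs and the asymptotic inequality. -/

set_option autoImplicit false
open Filter Topology

namespace Crest.Agent.AUC.Diamond

open Crest.AnalysisR Crest.Agent.AUC.Tree

theorem src_ne_tgt (k : ℕ) (e : DiamondEdge k) : diamondSrc k e ≠ diamondTgt k e := by
  cases k with
  | zero => intro h; exact Bool.noConfusion h
  | succ k =>
    obtain ⟨e, i, b⟩ := e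
    cases b
    · intro h; exact Sum.inl_ne_inr h
    · intro h; exact Sum.inr_ne_inl h

theorem adj_src_tgt (k : ℕ) (e : DiamondEdge k) :
    (diamondGraph k).Adj (diamondSrc k e) (diamondTgt k e) := by
  rw [diamondGraph, SimpleGraph.fromRel_adj]
  exact ⟨src_ne_tgt k e, Or.inl ⟨e, rfl, rfl⟩⟩

theorem adj_inl_inr (k : ℕ) (e : DiamondEdge k) (i : ℕ) :
    (diamondGraph (k + 1)).Adj (Sum.inl (diamondSrc k e)) (Sum.inr (e, i)) :=
  adj_src_tgt (k + 1) (e, i, false)

theorem adj_inr_inl (k : ℕ) (e : DiamondEdge k) (i : ℕ) :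
    (diamondGraph (k + 1)).Adj (Sum.inr (e, i)) (Sum.inl (diamondTgt k e)) :=
  adj_src_tgt (k + 1) (e, i, true)

theorem not_adj_inr_inr (k : ℕ) (p q : DiamondEdge k × ℕ) :
    ¬ (diamondGraph (k + 1)).Adj (Sum.inr p) (Sum.inr q) := by
  intro h
  obtain ⟨-, ⟨⟨e, i, b⟩, h1, h2⟩ | ⟨⟨e, i, b⟩, h1, h2⟩⟩ := (SimpleGraph.fromRel_adj _ _ _).1 h
  · cases b
    · exact Sum.inl_ne_inr h1
    · exact Sum.inl_ne_inr h2
  · cases b
    · exact Sum.inl_ne_inr h1
    · exact Sum.inl_ne_inr h2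

theorem reachable_inl (k : ℕ) {u v : DiamondVertex k} (h : (diamondGraph k).Reachable u v) :
    (diamondGraph (k + 1)).Reachable (Sum.inl u) (Sum.inl v) := by
  obtain ⟨p⟩ := h
  induction p with
  | nil => exact SimpleGraph.Reachable.refl _
  | cons h p ih =>
    refine SimpleGraph.Reachable.trans ?_ ih
    rw [diamondGraph, SimpleGraph.fromRel_adj] at h
    obtain ⟨-, ⟨e, rfl, rfl⟩ | ⟨e, rfl, rfl⟩⟩ := h
    · exact (adj_inl_inr k e 0).reachable.trans (adj_inr_inl k e 0).reachable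
    · exact ((adj_inl_inr k e 0).reachable.trans (adj_inr_inl k e 0).reachable).symm

theorem preconnected (k : ℕ) (u v : DiamondVertex k) : (diamondGraph k).Reachable u v := by
  induction k with
  | zero =>
    have h : (diamondGraph 0).Reachable false true := (adj_src_tgt 0 ()).reachable
    cases u <;> cases v
    · exact SimpleGraph.Reachable.refl _
    · exact h
    · exact h.symm
    · exact SimpleGraph.Reachable.refl _
  | succ k ih =>
    have hx : ∀ x : DiamondVertex (k + 1), ∃ w : DiamondVertex k,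
        (diamondGraph (k + 1)).Reachable x (Sum.inl w) := by
      rintro (w | ⟨e, i⟩)
      · exact ⟨w, SimpleGraph.Reachable.refl _⟩
      · exact ⟨_, (adj_inr_inl k e i).reachable⟩
    obtain ⟨w, hw⟩ := hx u
    obtain ⟨w', hw'⟩ := hx v
    exact (hw.trans (reachable_inl k (ih w w'))).trans hw'.symm

theorem lip_walk {V : Type*} {G : SimpleGraph V} (ρ : V → ℤ)
    (hρ : ∀ x y, G.Adj x y → |ρ x - ρ y| ≤ 1) {u v : V} (p : G.Walk u v) :
    |ρ u - ρ v| ≤ p.length := by
  induction p with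
  | nil => simp
  | cons h p ih =>
    rename_i a b c
    have h1 := hρ _ _ h
    have h2 : ρ a - ρ c = (ρ a - ρ b) + (ρ b - ρ c) := by ring
    rw [h2, SimpleGraph.Walk.length_cons]
    push_cast
    calc |(ρ a - ρ b) + (ρ b - ρ c)| ≤ |ρ a - ρ b| + |ρ b - ρ c| := abs_add_le _ _
      _ ≤ _ := by linarith

theorem dist_src_tgt (k : ℕ) (e : DiamondEdge k) :
    diamondDist k (diamondSrc k e) (diamondTgt k e) = 1 :=
  SimpleGraph.dist_eq_one_iff_adj.2 (adj_src_tgt k e)

theorem two_mul_dist_le (k : ℕ) (u v : DiamondVertex k) :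
    2 * diamondDist k u v ≤ diamondDist (k + 1) (Sum.inl u) (Sum.inl v) := by
  let ρ : DiamondVertex (k + 1) → ℤ := fun x => match x with
    | Sum.inl w => 2 * (diamondDist k u w : ℤ)
    | Sum.inr (e, _) => (diamondDist k u (diamondSrc k e) : ℤ) + diamondDist k u (diamondTgt k e)
  have hconn : (diamondGraph k).Connected :=
    { preconnected := preconnected k, nonempty := ⟨u⟩ }
  have hedge : ∀ e : DiamondEdge k,
      |(diamondDist k u (diamondSrc k e) : ℤ) - diamondDist k u (diamondTgt k e)| ≤ 1 := by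
    intro e
    have h1 : diamondDist k u (diamondTgt k e) ≤ diamondDist k u (diamondSrc k e) + 1 := by
      rw [← dist_src_tgt k e]; exact hconn.dist_triangle
    have h2 : diamondDist k u (diamondSrc k e) ≤ diamondDist k u (diamondTgt k e) + 1 := by
      rw [← dist_src_tgt k e, diamondDist, diamondDist, diamondDist,
        SimpleGraph.dist_comm (u := diamondSrc k e)]
      exact hconn.dist_triangle
    rw [abs_le]
    constructor <;> omega
  have hρ : ∀ e : DiamondEdge (k + 1),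
      |ρ (diamondSrc (k + 1) e) - ρ (diamondTgt (k + 1) e)| ≤ 1 := by
    rintro ⟨e, i, b⟩
    have h := hedge e
    cases b
    · change |2 * (diamondDist k u (diamondSrc k e) : ℤ) -
        ((diamondDist k u (diamondSrc k e) : ℤ) + diamondDist k u (diamondTgt k e))| ≤ 1
      rwa [show 2 * (diamondDist k u (diamondSrc k e) : ℤ) -
        ((diamondDist k u (diamondSrc k e) : ℤ) + diamondDist k u (diamondTgt k e)) =
        (diamondDist k u (diamondSrc k e) : ℤ) - diamondDist k u (diamondTgt k e) by ring]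
    · change |((diamondDist k u (diamondSrc k e) : ℤ) + diamondDist k u (diamondTgt k e)) -
        2 * (diamondDist k u (diamondTgt k e) : ℤ)| ≤ 1
      rwa [show ((diamondDist k u (diamondSrc k e) : ℤ) + diamondDist k u (diamondTgt k e)) -
        2 * (diamondDist k u (diamondTgt k e) : ℤ) =
        (diamondDist k u (diamondSrc k e) : ℤ) - diamondDist k u (diamondTgt k e) by ring]
  have hadj : ∀ x y, (diamondGraph (k + 1)).Adj x y → |ρ x - ρ y| ≤ 1 := by
    intro x y hxy
    rw [diamondGraph, SimpleGraph.fromRel_adj] at hxy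
    obtain ⟨-, ⟨e, rfl, rfl⟩ | ⟨e, rfl, rfl⟩⟩ := hxy
    · exact hρ e
    · rw [abs_sub_comm]; exact hρ e
  obtain ⟨p, hp⟩ := (preconnected (k + 1) (Sum.inl u) (Sum.inl v)).exists_walk_length_eq_dist
  have h1 := lip_walk ρ hadj p
  have h2 : ρ (Sum.inl u) = 0 := by
    change 2 * (diamondDist k u u : ℤ) = 0
    simp [diamondDist]
  have h3 : ρ (Sum.inl v) = 2 * (diamondDist k u v : ℤ) := rfl
  rw [h2, h3, hp, zero_sub, abs_neg, abs_of_nonneg (by positivity)] at h1
  have h4 : (2 * (diamondDist k u v : ℤ)) ≤ (diamondDist (k + 1) (Sum.inl u) (Sum.inl v) : ℤ) := h1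
  exact_mod_cast h4

theorem two_le_dist_siblings (k : ℕ) (e : DiamondEdge k) {i j : ℕ} (hij : i ≠ j) :
    2 ≤ diamondDist (k + 1) (Sum.inr (e, i)) (Sum.inr (e, j)) := by
  have hne : (Sum.inr (e, i) : DiamondVertex (k + 1)) ≠ Sum.inr (e, j) := by
    intro h
    have h2 : (e, i) = (e, j) := Sum.inr_injective h
    exact hij (congrArg Prod.snd h2)
  have := (preconnected (k + 1) (Sum.inr (e, i)) (Sum.inr (e, j))).one_lt_dist_of_ne_of_not_adj
    hne (not_adj_inr_inr k _ _)
  exact this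

section

variable {X : Type*} [NormedAddCommGroup X] [NormedSpace ℝ X]

/-- the fork inequality -/
theorem fork (hG : GoodMod X) (a b : X) (m : ℕ → X) (s R : ℝ) (hs : 0 ≤ s)
    (ha : ∀ i, ‖m i - a‖ ≤ R) (hb : ∀ i, ‖m i - b‖ ≤ R)
    (hm : ∀ i j, i ≠ j → 2 * s ≤ ‖m i - m j‖) :
    ‖a - b‖ ^ 2 ≤ 4 * (R ^ 2 - s ^ 2 / 4) := by
  have hR : 0 ≤ R := (norm_nonneg _).trans (ha 0)
  set w : X := (1 / 2 : ℝ) • (a - b) with hw
  set c : X := (1 / 2 : ℝ) • (a + b) with hc
  have hwa : c + w = a := by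
    rw [hw, hc, ← smul_add]
    have : a + b + (a - b) = (2 : ℝ) • a := by rw [two_smul]; abel
    rw [this, smul_smul]; norm_num
  have hwb : c - w = b := by
    rw [hw, hc, ← smul_sub]
    have : a + b - (a - b) = (2 : ℝ) • b := by rw [two_smul]; abel
    rw [this, smul_smul]; norm_num
  have hmain : ∀ η : ℝ, 0 < η → Real.sqrt (‖w‖ ^ 2 + (max (s - η) 0) ^ 2 / 4) ≤ R + 2 * η := by
    intro η hη
    obtain ⟨S, hcl, hfd, hS⟩ := hG w η hη
    -- two indices with close images in the quotient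
    have hbd : ∃ i j, i ≠ j ∧ ‖S.mkQ (m i) - S.mkQ (m j)‖ < 2 * η := by
      have : ProperSpace (X ⧸ S) := FiniteDimensional.proper ℝ _
      have hmem : ∀ n, S.mkQ (m n) ∈ Metric.closedBall (S.mkQ a) R := by
        intro n
        rw [Metric.mem_closedBall, dist_eq_norm, ← map_sub]
        exact (Submodule.Quotient.norm_mk_le _ _).trans (ha n)
      obtain ⟨z, -, φ, hφ, hlim⟩ := (isCompact_closedBall (S.mkQ a) R).tendsto_subseq hmem
      have hev : ∀ᶠ n in atTop, dist (S.mkQ (m (φ n))) z < η :=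
        (Metric.tendsto_nhds.1 hlim) η hη
      obtain ⟨N, hN⟩ := hev.exists_forall_of_atTop
      refine ⟨φ N, φ (N + 1), (hφ (Nat.lt_succ_self N)).ne, ?_⟩
      rw [← dist_eq_norm]
      calc dist (S.mkQ (m (φ N))) (S.mkQ (m (φ (N + 1))))
          ≤ dist (S.mkQ (m (φ N))) z + dist (S.mkQ (m (φ (N + 1)))) z := dist_triangle_right _ _ _
        _ < η + η := add_lt_add (hN N le_rfl) (hN (N + 1) (Nat.le_succ N))
        _ = 2 * η := by ring
    obtain ⟨i, j, hij, hlt⟩ := hbd
    rw [← map_sub] at hlt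
    obtain ⟨r, hr1, hr2⟩ := Submodule.Quotient.norm_mk_lt (S.mkQ (m i - m j))
      (ε := 2 * η - ‖S.mkQ (m i - m j)‖) (by linarith)
    have hrS : m i - m j - r ∈ S := by
      have : (S.mkQ (m i - m j - r)) = 0 := by
        rw [map_sub, sub_eq_zero]
        exact hr1.symm
      rwa [← LinearMap.mem_ker, Submodule.ker_mkQ] at this
    have hrn : ‖r‖ ≤ 2 * η := by linarith
    set y : X := (1 / 2 : ℝ) • (m i - m j - r) with hy
    have h1 := hS y (S.smul_mem _ hrS)
    have hhalf : ‖(1 / 2 : ℝ) • r‖ ≤ η := by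
      rw [norm_smul]; norm_num; linarith
    have h2 : ‖w + y‖ ≤ R + η := by
      have : w + y = (1 / 2 : ℝ) • (m i - b) + (1 / 2 : ℝ) • (a - m j) - (1 / 2 : ℝ) • r := by
        rw [hy, hw]
        simp only [smul_sub]
        abel
      rw [this]
      have e1 : ‖(1 / 2 : ℝ) • (m i - b)‖ ≤ R / 2 := by
        rw [norm_smul]; norm_num; linarith [hb i]
      have e2 : ‖(1 / 2 : ℝ) • (a - m j)‖ ≤ R / 2 := by
        rw [norm_smul, norm_sub_rev]; norm_num; linarith [ha j]
      calc _ ≤ ‖(1 / 2 : ℝ) • (m i - b) + (1 / 2 : ℝ) • (a - m j)‖ + ‖(1 / 2 : ℝ) • r‖ :=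
            norm_sub_le _ _
        _ ≤ ‖(1 / 2 : ℝ) • (m i - b)‖ + ‖(1 / 2 : ℝ) • (a - m j)‖ + ‖(1 / 2 : ℝ) • r‖ := by
            gcongr; exact norm_add_le _ _
        _ ≤ R / 2 + R / 2 + η := by gcongr
        _ = R + η := by ring
    have h3 : ‖w - y‖ ≤ R + η := by
      have : w - y = (1 / 2 : ℝ) • (m j - b) + (1 / 2 : ℝ) • (a - m i) + (1 / 2 : ℝ) • r := by
        rw [hy, hw]
        simp only [smul_sub]
        abel
      rw [this]
      have e1 : ‖(1 / 2 : ℝ) • (m j - b)‖ ≤ R / 2 := by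
        rw [norm_smul]; norm_num; linarith [hb j]
      have e2 : ‖(1 / 2 : ℝ) • (a - m i)‖ ≤ R / 2 := by
        rw [norm_smul, norm_sub_rev]; norm_num; linarith [ha i]
      calc _ ≤ ‖(1 / 2 : ℝ) • (m j - b) + (1 / 2 : ℝ) • (a - m i)‖ + ‖(1 / 2 : ℝ) • r‖ :=
            norm_add_le _ _
        _ ≤ ‖(1 / 2 : ℝ) • (m j - b)‖ + ‖(1 / 2 : ℝ) • (a - m i)‖ + ‖(1 / 2 : ℝ) • r‖ := by
            gcongr; exact norm_add_le _ _
        _ ≤ R / 2 + R / 2 + η := by gcongr
        _ = R + η := by ring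
    have h4 : s - η ≤ ‖y‖ := by
      have e1 : ‖(1 / 2 : ℝ) • (m i - m j)‖ = ‖m i - m j‖ / 2 := by
        rw [norm_smul]; norm_num; ring
      have e2 : ‖(1 / 2 : ℝ) • (m i - m j)‖ ≤ ‖y‖ + ‖(1 / 2 : ℝ) • r‖ := by
        have : (1 / 2 : ℝ) • (m i - m j) = y + (1 / 2 : ℝ) • r := by
          rw [hy, ← smul_add]; congr 1; abel
        rw [this]; exact norm_add_le _ _
      have := hm i j hij
      linarith
    have h5 : max (s - η) 0 ≤ ‖y‖ := max_le h4 (norm_nonneg _)
    have h6 : Real.sqrt (‖w‖ ^ 2 + (max (s - η) 0) ^ 2 / 4) ≤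
        Real.sqrt (‖w‖ ^ 2 + ‖y‖ ^ 2 / 4) := by
      apply Real.sqrt_le_sqrt
      have : (max (s - η) 0) ^ 2 ≤ ‖y‖ ^ 2 := pow_le_pow_left₀ (le_max_right _ _) h5 2
      linarith
    linarith
  have hlim : Real.sqrt (‖w‖ ^ 2 + s ^ 2 / 4) ≤ R := by
    have ht1 : Tendsto (fun η : ℝ => Real.sqrt (‖w‖ ^ 2 + (max (s - η) 0) ^ 2 / 4)) (𝓝[>] 0)
        (𝓝 (Real.sqrt (‖w‖ ^ 2 + (max (s - 0) 0) ^ 2 / 4))) := by
      apply tendsto_nhdsWithin_of_tendsto_nhds
      apply Continuous.tendsto (f := fun η : ℝ => Real.sqrt (‖w‖ ^ 2 + (max (s - η) 0) ^ 2 / 4))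
      fun_prop
    have ht2 : Tendsto (fun η : ℝ => R + 2 * η) (𝓝[>] 0) (𝓝 (R + 2 * 0)) := by
      apply tendsto_nhdsWithin_of_tendsto_nhds
      apply Continuous.tendsto (f := fun η : ℝ => R + 2 * η)
      fun_prop
    have := le_of_tendsto_of_tendsto ht1 ht2 (by
      filter_upwards [self_mem_nhdsWithin] with η hη
      exact hmain η hη)
    simpa [hs] using this
  have h7 : ‖w‖ ^ 2 + s ^ 2 / 4 ≤ R ^ 2 := by
    have h8 : Real.sqrt (‖w‖ ^ 2 + s ^ 2 / 4) ^ 2 = ‖w‖ ^ 2 + s ^ 2 / 4 :=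
      Real.sq_sqrt (by positivity)
    rw [← h8]
    exact pow_le_pow_left₀ (Real.sqrt_nonneg _) hlim 2
  have h9 : ‖w‖ = ‖a - b‖ / 2 := by
    rw [hw, norm_smul]; norm_num; ring
  rw [h9] at h7
  linarith

theorem distortion (hG : GoodMod X) (k : ℕ) : ∀ (f : DiamondVertex k → X) (s D : ℝ), 0 < s →
    0 ≤ D → (∀ u v, s * (diamondDist k u v : ℝ) ≤ ‖f u - f v‖) →
    (∀ e, ‖f (diamondSrc k e) - f (diamondTgt k e)‖ ≤ D * s) → 1 + (k : ℝ) / 4 ≤ D ^ 2 := by
  induction k with
  | zero =>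
    intro f s D hs hD hlow hup
    obtain ⟨e0⟩ : Nonempty (DiamondEdge 0) := ⟨()⟩
    have h1 := hlow (diamondSrc 0 e0) (diamondTgt 0 e0)
    have h2 := hup e0
    rw [dist_src_tgt] at h1
    have h3 : s * 1 ≤ D * s := by simpa using h1.trans h2
    have h4 : 1 ≤ D := by
      by_contra hcon
      push Not at hcon
      nlinarith
    simp only [Nat.cast_zero, zero_div, add_zero]
    nlinarith
  | succ k ih =>
    intro f s D hs hD hlow hup
    have key : ∀ e : DiamondEdge k, ‖f (Sum.inl (diamondSrc k e)) - f (Sum.inl (diamondTgt k e))‖ ^ 2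
        ≤ 4 * ((D * s) ^ 2 - s ^ 2 / 4) := by
      intro e
      refine fork hG _ _ (fun i => f (Sum.inr (e, i))) s (D * s) hs.le ?_ ?_ ?_
      · intro i
        rw [norm_sub_rev]
        exact hup (e, i, false)
      · intro i
        exact hup (e, i, true)
      · intro i j hij
        refine le_trans ?_ (hlow _ _)
        have h2 : (2 : ℝ) ≤ diamondDist (k + 1) (Sum.inr (e, i)) (Sum.inr (e, j)) := by
          exact_mod_cast two_le_dist_siblings k e hij
        rw [mul_comm]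
        gcongr
    -- existence of an edge
    have hedge : Nonempty (DiamondEdge k) := by
      clear * -
      induction k with
      | zero => exact ⟨()⟩
      | succ k ih => exact ⟨(ih.some, 0, true)⟩
    obtain ⟨e0⟩ := hedge
    have hD2 : 1 / 4 ≤ D ^ 2 := by
      have h1 := key e0
      have h2 : 0 ≤ 4 * ((D * s) ^ 2 - s ^ 2 / 4) := (sq_nonneg _).trans h1
      have h3 : 0 ≤ s ^ 2 * (D ^ 2 - 1 / 4) := by nlinarith
      have h4 : 0 < s ^ 2 := by positivity
      have := nonneg_of_mul_nonneg_right h3 h4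
      linarith
    set D' := Real.sqrt (D ^ 2 - 1 / 4) with hD'
    have hD'2 : D' ^ 2 = D ^ 2 - 1 / 4 := Real.sq_sqrt (by linarith)
    have := ih (fun u => f (Sum.inl u)) (2 * s) D' (by positivity) (Real.sqrt_nonneg _) ?_ ?_
    · rw [hD'2] at this
      push_cast
      linarith
    · intro u v
      refine le_trans ?_ (hlow _ _)
      have h2 : (2 : ℝ) * diamondDist k u v ≤ diamondDist (k + 1) (Sum.inl u) (Sum.inl v) := by
        exact_mod_cast two_mul_dist_le k u v
      calc 2 * s * (diamondDist k u v : ℝ) = s * (2 * diamondDist k u v) := by ring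
        _ ≤ _ := by gcongr
    · intro e
      have h1 := key e
      have h2 : 4 * ((D * s) ^ 2 - s ^ 2 / 4) = (D' * (2 * s)) ^ 2 := by
        rw [mul_pow D', hD'2]; ring
      rw [h2] at h1
      exact le_of_sq_le_sq h1 (by positivity)

end

end Crest.Agent.AUC.Diamond
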