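import Mathlib
import Crest.Agent.AUC.Tree

/-! The ℓ²-sum of a sequence of normed spaces: asymptotic inequality and reflexivity. -/

set_option autoImplicit false
open Filter Topology

namespace Crest.Agent.AUC.L2Sum

open Crest.Agent.AUC.Tree

section basic

variable {κ : Type*} {E : κ → Type*} [∀ k, NormedAddCommGroup (E k)]

theorem two_toReal : (2 : ENNReal).toReal = (2 : ℝ) := by simp

theorem hasSum_sq (f : lp E 2) : HasSum (fun i => ‖f i‖ ^ 2) (‖f‖ ^ 2) := by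
  have := lp.hasSum_norm (p := 2) (by simp) f
  simpa using this

theorem sum_sq_le (f : lp E 2) (A : Finset κ) : ∑ i ∈ A, ‖f i‖ ^ 2 ≤ ‖f‖ ^ 2 :=
  sum_le_hasSum A (fun _ _ => sq_nonneg _) (hasSum_sq f)

theorem memlp_of_hasSum {f : ∀ i, E i} {c : ℝ} (h : HasSum (fun i => ‖f i‖ ^ 2) c) :
    Memℓp f 2 := by
  apply memℓp_gen
  simpa using h.summable

theorem norm_sq_of_hasSum (f : lp E 2) {c : ℝ} (h : HasSum (fun i => ‖f i‖ ^ 2) c) :
    ‖f‖ ^ 2 = c := (hasSum_sq f).unique h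

end basic

variable {E : ℕ → Type} [∀ k, NormedAddCommGroup (E k)] [∀ k, NormedSpace ℝ (E k)]

omit [∀ k, NormedSpace ℝ (E k)] in
theorem l2_star (x' y : lp E 2) (A : Finset ℕ) (η' : ℝ) (hη'0 : 0 < η')
    (hx' : ∀ i, i ∉ A → x' i = 0)
    (hS : ∀ i ∈ A, 2 * Real.sqrt (‖x' i‖ ^ 2 + ‖y i‖ ^ 2 / 4) - η' ≤ ‖x' i + y i‖ + ‖x' i - y i‖) :
    2 * Real.sqrt (‖x'‖ ^ 2 + ‖y‖ ^ 2 / 4) ≤ ‖x' + y‖ + ‖x' - y‖ + A.card * η' := by
  classical
  -- the comparison sequence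
  have hcsum : HasSum (fun i => ‖(2 * Real.sqrt (‖x' i‖ ^ 2 + ‖y i‖ ^ 2 / 4) : ℝ)‖ ^ 2)
      (4 * ‖x'‖ ^ 2 + ‖y‖ ^ 2) := by
    have h1 := ((hasSum_sq x').mul_left 4).add (hasSum_sq y)
    refine h1.congr_fun fun i => ?_
    rw [Real.norm_eq_abs, sq_abs, mul_pow, Real.sq_sqrt (by positivity)]
    ring
  obtain ⟨c, hci⟩ : ∃ c : lp (fun _ : ℕ => ℝ) 2,
      ∀ i, c i = 2 * Real.sqrt (‖x' i‖ ^ 2 + ‖y i‖ ^ 2 / 4) :=
    ⟨⟨_, memlp_of_hasSum (E := fun _ : ℕ => ℝ) hcsum⟩, fun _ => rfl⟩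
  have hc : ‖c‖ = 2 * Real.sqrt (‖x'‖ ^ 2 + ‖y‖ ^ 2 / 4) := by
    have h1 : ‖c‖ ^ 2 = 4 * ‖x'‖ ^ 2 + ‖y‖ ^ 2 := by
      refine norm_sq_of_hasSum c ?_
      simp only [hci]
      exact hcsum
    have h2 : (2 * Real.sqrt (‖x'‖ ^ 2 + ‖y‖ ^ 2 / 4)) ^ 2 = ‖c‖ ^ 2 := by
      rw [mul_pow, Real.sq_sqrt (by positivity), h1]; ring
    exact (pow_left_inj₀ (norm_nonneg _) (by positivity) two_ne_zero).1 h2.symm
  obtain ⟨r, hri, hr⟩ : ∃ r : lp (fun _ : ℕ => ℝ) 2, (∀ i, r i = if i ∈ A then η' else 0) ∧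
      ‖r‖ ≤ A.card * η' := by
    refine ⟨∑ i ∈ A, lp.single 2 i η', ?_, ?_⟩
    · intro i
      simp only [lp.coeFn_single, lp.coeFn_sum, Finset.sum_apply, Finset.sum_pi_single]
    · have h02 : (0 : ENNReal) < 2 := by simp
      have hs : ∀ i : ℕ, ‖lp.single (E := fun _ : ℕ => ℝ) 2 i η'‖ = η' := fun i => by
        rw [lp.norm_single (E := fun _ : ℕ => ℝ) (p := 2) h02 i η']
        exact Real.norm_of_nonneg hη'0.le
      calc ‖∑ i ∈ A, lp.single (E := fun _ : ℕ => ℝ) 2 i η'‖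
          ≤ ∑ i ∈ A, ‖lp.single (E := fun _ : ℕ => ℝ) 2 i η'‖ := norm_sum_le _ _
        _ = ∑ i ∈ A, η' := Finset.sum_congr rfl fun i _ => hs i
        _ = A.card * η' := by rw [Finset.sum_const, nsmul_eq_mul]
  obtain ⟨N1, hN1i, hN1⟩ : ∃ N : lp (fun _ : ℕ => ℝ) 2, (∀ i, N i = ‖x' i + y i‖) ∧
      ‖N‖ = ‖x' + y‖ := ⟨lp.toNorm (x' + y), fun _ => rfl, lp.norm_toNorm⟩
  obtain ⟨N2, hN2i, hN2⟩ : ∃ N : lp (fun _ : ℕ => ℝ) 2, (∀ i, N i = ‖x' i - y i‖) ∧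
      ‖N‖ = ‖x' - y‖ := ⟨lp.toNorm (x' - y), fun _ => rfl, lp.norm_toNorm⟩
  have hpt : ∀ i, ‖c i‖ ≤ ‖(N1 + N2 + r) i‖ := by
    intro i
    have e1 : (N1 + N2 + r) i = ‖x' i + y i‖ + ‖x' i - y i‖ + r i := by
      rw [lp.coeFn_add, lp.coeFn_add, Pi.add_apply, Pi.add_apply, hN1i, hN2i]
    have e3 : 0 ≤ r i := by
      rw [hri]
      split_ifs
      · exact hη'0.le
      · exact le_rfl
    rw [e1, hci, Real.norm_of_nonneg (by positivity), Real.norm_of_nonneg (by positivity), hri]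
    split_ifs with hi
    · have := hS i hi
      linarith
    · rw [hx' i hi]
      simp only [norm_zero, zero_add, zero_sub, norm_neg, add_zero]
      have : Real.sqrt ((0 : ℝ) ^ 2 + ‖y i‖ ^ 2 / 4) = ‖y i‖ / 2 := by
        rw [show (0 : ℝ) ^ 2 + ‖y i‖ ^ 2 / 4 = (‖y i‖ / 2) ^ 2 by ring]
        exact Real.sqrt_sq (by positivity)
      rw [this]
      linarith [norm_nonneg (y i)]
  rw [← hc]
  calc ‖c‖ ≤ ‖N1 + N2 + r‖ := lp.norm_mono (by simp) hpt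
    _ ≤ ‖N1‖ + ‖N2‖ + ‖r‖ := norm_add₃_le
    _ ≤ ‖x' + y‖ + ‖x' - y‖ + A.card * η' := by
      rw [hN1, hN2]
      gcongr

/-- stability of the inequality under small changes of the centre -/
theorem star_perturb {X : Type*} [NormedAddCommGroup X] [NormedSpace ℝ X] (x x' y : X) (η : ℝ)
    (hd : ‖x - x'‖ < η / 8)
    (h : 2 * Real.sqrt (‖x'‖ ^ 2 + ‖y‖ ^ 2 / 4) ≤ ‖x' + y‖ + ‖x' - y‖ + η / 8) :
    2 * Real.sqrt (‖x‖ ^ 2 + ‖y‖ ^ 2 / 4) - η ≤ ‖x + y‖ + ‖x - y‖ := by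
  have h1 : ‖x' + y‖ ≤ ‖x + y‖ + ‖x - x'‖ := by
    have : x' + y = (x + y) - (x - x') := by abel
    rw [this]; exact norm_sub_le _ _
  have h2 : ‖x' - y‖ ≤ ‖x - y‖ + ‖x - x'‖ := by
    have : x' - y = (x - y) - (x - x') := by abel
    rw [this]; exact norm_sub_le _ _
  have h3 : Real.sqrt (‖x‖ ^ 2 + ‖y‖ ^ 2 / 4) ≤ Real.sqrt (‖x'‖ ^ 2 + ‖y‖ ^ 2 / 4) + ‖x - x'‖ := by
    have hxn : ‖x‖ ≤ ‖x'‖ + ‖x - x'‖ := by
      have : x = x' + (x - x') := by abel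
      calc ‖x‖ = ‖x' + (x - x')‖ := by rw [← this]
        _ ≤ _ := norm_add_le _ _
    rw [Real.sqrt_le_left (by positivity)]
    have h4 : ‖x'‖ ≤ Real.sqrt (‖x'‖ ^ 2 + ‖y‖ ^ 2 / 4) := by
      apply Real.le_sqrt_of_sq_le
      have : 0 ≤ ‖y‖ ^ 2 / 4 := by positivity
      linarith
    have h5 : Real.sqrt (‖x'‖ ^ 2 + ‖y‖ ^ 2 / 4) ^ 2 = ‖x'‖ ^ 2 + ‖y‖ ^ 2 / 4 :=
      Real.sq_sqrt (by positivity)
    have h6 : ‖x‖ ^ 2 ≤ (‖x'‖ + ‖x - x'‖) ^ 2 := by gcongr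
    nlinarith [norm_nonneg (x - x'), norm_nonneg x']
  linarith [norm_nonneg (x - x')]

theorem goodMod_l2 (h : ∀ k, GoodMod (E k)) : GoodMod (lp E 2) := by
  classical
  intro x η hη
  -- approximate by a finite sum
  obtain ⟨A, hA⟩ := (((lp.hasSum_single (p := 2) (by simp) x).eventually
    (Metric.ball_mem_nhds x (show 0 < η / 8 by positivity))).exists)
  obtain ⟨x', hx'i, hd⟩ : ∃ x' : lp E 2, (∀ i, x' i = if i ∈ A then x i else 0) ∧
      ‖x - x'‖ < η / 8 := by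
    refine ⟨∑ i ∈ A, lp.single 2 i (x i), ?_, ?_⟩
    · intro i
      simp only [lp.coeFn_single, lp.coeFn_sum, Finset.sum_apply, Finset.sum_pi_single]
    · rw [← dist_eq_norm, dist_comm]
      exact hA
  set η' : ℝ := η / (8 * (A.card + 1)) with hη'
  have hη'0 : 0 < η' := by positivity
  choose S hcl hfd hS using fun k => h k (x k) η' hη'0
  have hclI : ∀ k, IsClosed (S k : Set (E k)) := hcl
  obtain ⟨R, hRcl, hRfd, hR⟩ : ∃ R : Submodule ℝ (lp E 2), IsClosed (R : Set (lp E 2)) ∧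
      FiniteDimensional ℝ (lp E 2 ⧸ R) ∧ ∀ y ∈ R, ∀ k ∈ A, y k ∈ S k := by
    let Φ : lp E 2 →L[ℝ] (∀ k : A, E k ⧸ S k) :=
      ContinuousLinearMap.pi fun k => (S k).mkQL.comp (lp.evalCLM ℝ E 2 k)
    obtain ⟨hΦcl, hΦfd⟩ := ker_cof Φ
    refine ⟨_, hΦcl, hΦfd, fun y hy k hk => ?_⟩
    have h1 : Φ y = 0 := hy
    have h2 : Φ y ⟨k, hk⟩ = 0 := by rw [h1]; rfl
    have h3 : (S k).mkQ (y k) = 0 := h2
    rwa [← LinearMap.mem_ker, Submodule.ker_mkQ] at h3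
  refine ⟨R, hRcl, hRfd, fun y hy => ?_⟩
  refine star_perturb x x' y η hd ?_
  have h1 := l2_star x' y A η' hη'0 (fun i hi => by rw [hx'i, if_neg hi]) (fun i hi => by
    rw [hx'i, if_pos hi]
    exact hS i (y i) (hR y hy i hi))
  have h2 : A.card * η' ≤ η / 8 := by
    calc A.card * η' ≤ (A.card + 1) * η' := by nlinarith
      _ = η / 8 := by rw [hη']; field_simp
  linarith

/-- sums of functionals on the coordinates -/
theorem norm_sum_comp_le (g : ∀ k, StrongDual ℝ (E k)) (a : ℕ → ℝ) (ha : ∀ k, ‖g k‖ ≤ a k)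
    (A : Finset ℕ) :
    ‖∑ k ∈ A, (g k).comp (lp.evalCLM ℝ E 2 k)‖ ≤ Real.sqrt (∑ k ∈ A, a k ^ 2) := by
  refine ContinuousLinearMap.opNorm_le_bound _ (Real.sqrt_nonneg _) fun y => ?_
  have h1 : (∑ k ∈ A, (g k).comp (lp.evalCLM ℝ E 2 k)) y = ∑ k ∈ A, g k (y k) := by
    simp [lp.evalCLM]
  rw [h1]
  calc ‖∑ k ∈ A, g k (y k)‖ ≤ ∑ k ∈ A, a k * ‖y k‖ := by
        refine (norm_sum_le _ _).trans (Finset.sum_le_sum fun k _ => ?_)
        exact ((g k).le_opNorm _).trans (by gcongr; exact ha k)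
    _ ≤ Real.sqrt (∑ k ∈ A, a k ^ 2) * Real.sqrt (∑ k ∈ A, ‖y k‖ ^ 2) :=
        Real.sum_mul_le_sqrt_mul_sqrt _ _ _
    _ ≤ Real.sqrt (∑ k ∈ A, a k ^ 2) * ‖y‖ := by
        gcongr
        rw [Real.sqrt_le_left (norm_nonneg _)]
        exact sum_sq_le y A

omit [∀ k, NormedSpace ℝ (E k)] in
theorem norm_sum_single_le (u : ∀ k, E k) (a : ℕ → ℝ) (ha : ∀ k, ‖u k‖ ≤ a k) (A : Finset ℕ) :
    ‖∑ k ∈ A, (lp.single 2 k (u k) : lp E 2)‖ ≤ Real.sqrt (∑ k ∈ A, a k ^ 2) := by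
  have h := lp.norm_sum_single (p := 2) (by simp) u A
  apply Real.le_sqrt_of_sq_le
  have h2 : ‖∑ k ∈ A, (lp.single 2 k (u k) : lp E 2)‖ ^ 2 = ∑ i ∈ A, ‖u i‖ ^ 2 := by
    simpa using h
  rw [h2]
  exact Finset.sum_le_sum fun k _ => pow_le_pow_left₀ (norm_nonneg _) (ha k) 2

theorem reflexive_l2 (h : ∀ k, Function.Surjective (NormedSpace.inclusionInDoubleDual ℝ (E k))) :
    Function.Surjective (NormedSpace.inclusionInDoubleDual ℝ (lp E 2)) := by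
  classical
  intro Φ
  have hx : ∀ k, ∃ x : E k, ∀ g : StrongDual ℝ (E k),
      Φ (g.comp (lp.evalCLM ℝ E 2 k)) = g x := by
    intro k
    let π' : StrongDual ℝ (E k) →L[ℝ] StrongDual ℝ (lp E 2) :=
      (ContinuousLinearMap.compL ℝ (lp E 2) (E k) ℝ).flip (lp.evalCLM ℝ E 2 k)
    obtain ⟨x, hx⟩ := h k (Φ.comp π')
    refine ⟨x, fun g => ?_⟩
    have := congrArg (fun Ψ => Ψ g) hx
    simp only [NormedSpace.dual_def] at this
    rw [this]
    rfl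
  choose x hx using hx
  -- square summability
  have hsq : ∀ A : Finset ℕ, ∑ k ∈ A, ‖x k‖ ^ 2 ≤ ‖Φ‖ ^ 2 := by
    intro A
    choose g hg1 hg2 using fun k => exists_dual_vector'' ℝ (x k)
    set s := ∑ k ∈ A, ‖x k‖ ^ 2 with hs
    have hs0 : 0 ≤ s := Finset.sum_nonneg fun _ _ => sq_nonneg _
    have e1 : Φ (∑ k ∈ A, (‖x k‖ • g k).comp (lp.evalCLM ℝ E 2 k)) = s := by
      rw [map_sum]
      refine Finset.sum_congr rfl fun k _ => ?_
      rw [hx, _root_.smul_apply, hg2, smul_eq_mul, sq]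
      rfl
    have e2 := norm_sum_comp_le (E := E) (fun k => ‖x k‖ • g k) (fun k => ‖x k‖) (fun k => by
      rw [norm_smul, norm_norm]
      exact mul_le_of_le_one_right (norm_nonneg _) (hg1 k)) A
    have e3 : s ≤ ‖Φ‖ * Real.sqrt s := by
      calc s ≤ ‖Φ (∑ k ∈ A, (‖x k‖ • g k).comp (lp.evalCLM ℝ E 2 k))‖ := by
            rw [e1]; exact le_abs_self _
        _ ≤ ‖Φ‖ * ‖∑ k ∈ A, (‖x k‖ • g k).comp (lp.evalCLM ℝ E 2 k)‖ := Φ.le_opNorm _
        _ ≤ ‖Φ‖ * Real.sqrt s := by gcongr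
    rcases eq_or_lt_of_le hs0 with h0 | h0
    · rw [← h0]; positivity
    · have h3 : 0 < Real.sqrt s := Real.sqrt_pos.2 h0
      have h4 : Real.sqrt s * Real.sqrt s = s := Real.mul_self_sqrt hs0
      have h5 : Real.sqrt s ≤ ‖Φ‖ := by
        by_contra hcon
        push Not at hcon
        have : ‖Φ‖ * Real.sqrt s < Real.sqrt s * Real.sqrt s :=
          mul_lt_mul_of_pos_right hcon h3
        linarith
      calc s = Real.sqrt s ^ 2 := by rw [sq, h4]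
        _ ≤ ‖Φ‖ ^ 2 := by gcongr
  have hmem : Memℓp x 2 := by
    apply memℓp_gen' (C := ‖Φ‖ ^ 2)
    intro A
    simpa using hsq A
  let X : lp E 2 := ⟨x, hmem⟩
  refine ⟨X, ?_⟩
  ext G
  rw [NormedSpace.dual_def]
  -- coordinates of G
  let Gk : ∀ k, StrongDual ℝ (E k) := fun k => G.comp (lp.singleContinuousLinearMap ℝ E 2 k)
  have hatt : ∀ k, ∃ y : E k, ‖y‖ ≤ 1 ∧ Gk k y = ‖Gk k‖ := by
    intro k
    obtain ⟨Ψ, hΨ1, hΨ2⟩ := exists_dual_vector'' ℝ (Gk k)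
    obtain ⟨y, rfl⟩ := h k Ψ
    refine ⟨y, ?_, ?_⟩
    · have := (NormedSpace.inclusionInDoubleDualLi ℝ (E := E k)).norm_map y
      rw [← this]; exact hΨ1
    · rw [NormedSpace.dual_def] at hΨ2
      exact hΨ2
  have hGsq : ∀ A : Finset ℕ, ∑ k ∈ A, ‖Gk k‖ ^ 2 ≤ ‖G‖ ^ 2 := by
    intro A
    choose y hy1 hy2 using hatt
    set s := ∑ k ∈ A, ‖Gk k‖ ^ 2 with hs
    have hs0 : 0 ≤ s := Finset.sum_nonneg fun _ _ => sq_nonneg _
    have e1 : G (∑ k ∈ A, lp.single 2 k (‖Gk k‖ • y k)) = s := by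
      rw [map_sum]
      refine Finset.sum_congr rfl fun k _ => ?_
      have : G (lp.single 2 k (‖Gk k‖ • y k)) = Gk k (‖Gk k‖ • y k) := rfl
      rw [this, map_smul, hy2, smul_eq_mul, sq]
    have e2 := norm_sum_single_le (E := E) (fun k => ‖Gk k‖ • y k) (fun k => ‖Gk k‖) (fun k => by
      rw [norm_smul, norm_norm]
      exact mul_le_of_le_one_right (norm_nonneg _) (hy1 k)) A
    have e3 : s ≤ ‖G‖ * Real.sqrt s := by
      calc s ≤ ‖G (∑ k ∈ A, lp.single 2 k (‖Gk k‖ • y k))‖ := by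
            rw [e1]; exact le_abs_self _
        _ ≤ ‖G‖ * ‖∑ k ∈ A, (lp.single 2 k (‖Gk k‖ • y k) : lp E 2)‖ := G.le_opNorm _
        _ ≤ ‖G‖ * Real.sqrt s := by gcongr
    rcases eq_or_lt_of_le hs0 with h0 | h0
    · rw [← h0]; positivity
    · have h3 : 0 < Real.sqrt s := Real.sqrt_pos.2 h0
      have h4 : Real.sqrt s * Real.sqrt s = s := Real.mul_self_sqrt hs0
      have h5 : Real.sqrt s ≤ ‖G‖ := by
        by_contra hcon
        push Not at hcon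
        have : ‖G‖ * Real.sqrt s < Real.sqrt s * Real.sqrt s :=
          mul_lt_mul_of_pos_right hcon h3
        linarith
      calc s = Real.sqrt s ^ 2 := by rw [sq, h4]
        _ ≤ ‖G‖ ^ 2 := by gcongr
  have hGsummable : Summable fun k => ‖Gk k‖ ^ 2 := summable_of_sum_le (fun _ => sq_nonneg _) hGsq
  have hsummable : Summable fun k => (Gk k).comp (lp.evalCLM ℝ E 2 k) := by
    rw [summable_iff_vanishing_norm]
    intro ε hε
    obtain ⟨s, hs⟩ := (summable_iff_vanishing_norm.1 hGsummable) (ε ^ 2) (by positivity)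
    refine ⟨s, fun t ht => ?_⟩
    have h1 := hs t ht
    refine (norm_sum_comp_le (E := E) Gk (fun k => ‖Gk k‖) (fun _ => le_rfl) t).trans_lt ?_
    rw [Real.norm_of_nonneg (Finset.sum_nonneg fun _ _ => sq_nonneg _)] at h1
    rw [Real.sqrt_lt' hε]
    exact h1
  obtain ⟨G', hG'⟩ := hsummable
  have hGG : G' = G := by
    ext y
    have h1 : HasSum (fun k => Gk k (y k)) (G' y) :=
      hG'.map (ContinuousLinearMap.apply ℝ ℝ y) (ContinuousLinearMap.apply ℝ ℝ y).continuous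
    have h2 : HasSum (fun k => Gk k (y k)) (G y) :=
      (lp.hasSum_single (p := 2) (by simp) y).map G G.continuous
    exact h1.unique h2
  subst hGG
  have h1 : HasSum (fun k => Gk k (x k)) (Φ G') := by
    have := hG'.map Φ Φ.continuous
    refine this.congr_fun fun k => ?_
    exact (hx k (Gk k)).symm
  have h2 : HasSum (fun k => Gk k (x k)) (G' X) :=
    (lp.hasSum_single (p := 2) (by simp) X).map G' G'.continuous
  exact h2.unique h1

/-- reflexivity passes along linear homeomorphisms from a Hilbert space -/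
theorem reflexive_of_equiv {H Y : Type*} [NormedAddCommGroup H] [InnerProductSpace ℝ H]
    [CompleteSpace H] [NormedAddCommGroup Y] [NormedSpace ℝ Y] (T : H ≃L[ℝ] Y) :
    Function.Surjective (NormedSpace.inclusionInDoubleDual ℝ Y) := by
  intro Φ
  let ψ : StrongDual ℝ H →L[ℝ] StrongDual ℝ Y :=
    (ContinuousLinearMap.compL ℝ Y H ℝ).flip (T.symm : Y →L[ℝ] H)
  let Λ : StrongDual ℝ H := (Φ.comp ψ).comp (innerSL ℝ (E := H))
  let x : H := (InnerProductSpace.toDual ℝ H).symm Λ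
  refine ⟨T x, ?_⟩
  ext g
  rw [NormedSpace.dual_def]
  let h : H := (InnerProductSpace.toDual ℝ H).symm (g.comp (T : H →L[ℝ] Y))
  have h1 : ∀ z, inner ℝ h z = g (T z) := fun z =>
    InnerProductSpace.toDual_symm_apply
  have h2 : ∀ z, inner ℝ x z = Λ z := fun z => InnerProductSpace.toDual_symm_apply
  have h3 : Λ h = Φ g := by
    have : ψ (innerSL ℝ h) = g := by
      ext y
      change inner ℝ h (T.symm y) = g y
      rw [h1]; simp
    change Φ (ψ (innerSL ℝ h)) = Φ g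
    rw [this]
  rw [← h1 x, real_inner_comm, h2, h3]

end Crest.Agent.AUC.L2Sum
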