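import Mathlib
import Crest.Agent.AUC.L2Sum

/-! The spaces of bounded height: renormings of ℓ² on the tree. -/

set_option autoImplicit false
open Filter Topology

namespace Crest.Agent.AUC.Height

open Crest.AnalysisR.TreePotential Crest.Agent.AUC.Tree Crest.Agent.AUC.L2Sum

/-- Hilbert space on the vertices of the tree -/
abbrev H : Type := lp (fun _ : List ℕ => ℝ) 2

/-- tests of height `k` -/
def Tst (k : ℕ) : Set H :=
  {f | ‖f‖ ≤ 1 ∧ ∀ s : List ℕ, s.length ≤ k → |pathPotential (fun u => f u) s| ≤ 1}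

theorem abs_apply_le (f : H) (s : List ℕ) : |f s| ≤ ‖f‖ := by
  have := lp.norm_apply_le_norm (p := 2) (by simp) f s
  simpa using this

theorem abs_pathPotential_le (f : H) (s : List ℕ) :
    |pathPotential (fun u => f u) s| ≤ (s.length + 1) * ‖f‖ := by
  induction s with
  | nil => simpa [pathPotential] using abs_apply_le f []
  | cons a v ih =>
    simp only [pathPotential, List.length_cons, Nat.cast_add, Nat.cast_one]
    have h1 := abs_apply_le f (a :: v)
    have h2 := abs_add_le (pathPotential (fun u => f u) v) (f (a :: v))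
    linarith

theorem single_norm_one (s : List ℕ) : ‖(lp.single 2 s (1 : ℝ) : H)‖ = 1 := by
  have h02 : (0 : ENNReal) < 2 := by simp
  rw [lp.norm_single (E := fun _ : List ℕ => ℝ) (p := 2) h02 s (1 : ℝ)]
  simp

theorem pathPotential_single' (s u : List ℕ) :
    |pathPotential (fun w => (lp.single 2 s (1 : ℝ) : H) w) u| ≤ 1 := by
  classical
  have h0 : (fun w => (lp.single 2 s (1 : ℝ) : H) w) = Pi.single s (1 : ℝ) := by
    rw [lp.coeFn_single]
  rw [h0]
  have : pathPotential (Pi.single s (1 : ℝ)) u = if s <:+ u then 1 else 0 := by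
    induction u with
    | nil =>
      by_cases h : s = []
      · simp [pathPotential, h]
      · have h' : ¬ ([] = s) := fun h2 => h h2.symm
        simp [pathPotential, Pi.single_apply, h, h']
    | cons a v ih =>
      rw [pathPotential, ih, Pi.single_apply]
      by_cases h1 : a :: v = s
      · have h2 : ¬ s <:+ v := by
          intro h
          have := h.length_le
          rw [← h1] at this
          simp at this
        simp [h1, h2]
      · by_cases h2 : s <:+ v
        · have h3 : s <:+ a :: v := h2.trans (List.suffix_cons a v)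
          simp [h1, h2, h3]
        · have h3 : ¬ s <:+ a :: v := by
            rw [List.suffix_cons_iff]
            push Not
            exact ⟨fun h => h1 h.symm, h2⟩
          simp [h1, h2, h3]
  rw [this]
  split_ifs <;> simp

theorem single_mem_Tst (k : ℕ) (s : List ℕ) : (lp.single 2 s (1 : ℝ) : H) ∈ Tst k :=
  ⟨(single_norm_one s).le, fun u _ => pathPotential_single' s u⟩

theorem pathPotential_neg (f : List ℕ → ℝ) (s : List ℕ) :
    pathPotential (fun u => - f u) s = - pathPotential f s := by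
  induction s with
  | nil => rfl
  | cons a v ih => simp only [pathPotential, ih]; ring

theorem pathPotential_smul (c : ℝ) (f : List ℕ → ℝ) (s : List ℕ) :
    pathPotential (fun u => c * f u) s = c * pathPotential f s := by
  induction s with
  | nil => rfl
  | cons a v ih => simp only [pathPotential, ih]; ring

theorem neg_mem_Tst (k : ℕ) {f : H} (hf : f ∈ Tst k) : -f ∈ Tst k := by
  refine ⟨by rw [norm_neg]; exact hf.1, fun s hs => ?_⟩
  have : (fun u => (-f : H) u) = fun u => - f u := rfl
  rw [this, pathPotential_neg, abs_neg]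
  exact hf.2 s hs

theorem isTestSys (k : ℕ) :
    IsTestSys (fun (f : Tst k) (u : List ℕ) => f.1 u) {s | s.length ≤ k} Set.univ where
  anc a v h := by
    simp only [Set.mem_ofPred_eq, List.length_cons] at h ⊢
    omega
  bound f s hs := f.2.2 s hs
  combine := by
    rintro ⟨f, hf1, hf2⟩ ⟨g, hg1, hg2⟩ α β hα hβ hαβ h hpot hsq
    have hfs := (hasSum_sq f).summable
    have hgs := (hasSum_sq g).summable
    have hs1 : HasSum (fun i => α ^ 2 * ‖f i‖ ^ 2 + β ^ 2 * ‖g i‖ ^ 2)
        (α ^ 2 * ‖f‖ ^ 2 + β ^ 2 * ‖g‖ ^ 2) :=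
      ((hasSum_sq f).mul_left _).add ((hasSum_sq g).mul_left _)
    have hle : ∀ i, ‖h i‖ ^ 2 ≤ α ^ 2 * ‖f i‖ ^ 2 + β ^ 2 * ‖g i‖ ^ 2 := by
      intro i
      simpa using hsq i
    have hs2 : Summable fun i => ‖h i‖ ^ 2 :=
      Summable.of_nonneg_of_le (fun _ => sq_nonneg _) hle hs1.summable
    have hmem : Memℓp h 2 := memlp_of_hasSum (E := fun _ : List ℕ => ℝ) hs2.hasSum
    let h' : H := ⟨h, hmem⟩
    have hn : ‖h'‖ ^ 2 ≤ 1 := by
      rw [norm_sq_of_hasSum h' hs2.hasSum]
      refine (hs2.tsum_le_tsum hle hs1.summable).trans ?_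
      rw [hs1.tsum_eq]
      have e1 : ‖f‖ ^ 2 ≤ 1 := pow_le_one₀ (norm_nonneg _) hf1
      have e2 : ‖g‖ ^ 2 ≤ 1 := pow_le_one₀ (norm_nonneg _) hg1
      nlinarith [sq_nonneg α, sq_nonneg β]
    refine ⟨⟨h', ?_, fun s hs => hpot s hs⟩, rfl⟩
    exact (sq_le_one_iff₀ (norm_nonneg _)).1 hn
  single := by
    intro s _
    refine ⟨⟨lp.single 2 s (1 : ℝ), single_mem_Tst k s⟩, ?_⟩
    exact lp.coeFn_single _ _ _
  zero i s hs := absurd (Set.mem_univ s) hs
  sibling := by
    rintro ⟨f, hf1, hf2⟩ r A
    classical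
    have hinj : Function.Injective (fun n : ℕ => n :: r) := by
      intro a b h
      simpa using h
    have h1 := sum_sq_le f (A.image fun n => n :: r)
    rw [Finset.sum_image (fun a _ b _ h => hinj h)] at h1
    have h2 : ‖f‖ ^ 2 ≤ 1 := pow_le_one₀ (norm_nonneg _) hf1
    simpa using h1.trans h2

/-- the embedding of the Hilbert space into bounded functions on the tests -/
noncomputable def J (k : ℕ) : H →L[ℝ] lp (fun _ : Tst k => ℝ) ⊤ :=
  LinearMap.mkContinuous
    { toFun := fun x => ⟨fun f => inner ℝ f.1 x, memℓp_infty ⟨‖x‖, by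
        rintro _ ⟨f, rfl⟩
        refine (norm_inner_le_norm f.1 x).trans ?_
        exact mul_le_of_le_one_left (norm_nonneg _) f.2.1⟩⟩
      map_add' := fun x y => by
        ext f
        exact inner_add_right _ _ _
      map_smul' := fun c x => by
        ext f
        exact inner_smul_right _ _ _ } 1 (fun x => by
      rw [one_mul]
      refine lp.norm_le_of_forall_le (norm_nonneg _) fun f => ?_
      refine (norm_inner_le_norm f.1 x).trans ?_
      exact mul_le_of_le_one_left (norm_nonneg _) f.2.1)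

theorem J_apply (k : ℕ) (x : H) (f : Tst k) : J k x f = inner ℝ f.1 x := rfl

theorem norm_le_J (k : ℕ) (x : H) : ‖x‖ ≤ (k + 1) * ‖J k x‖ := by
  rcases eq_or_ne x 0 with rfl | hx
  · simp
  have hx0 : 0 < ‖x‖ := norm_pos_iff.2 hx
  set c : ℝ := ((k + 1) * ‖x‖)⁻¹ with hc
  have hc0 : 0 < c := by positivity
  have hnc : ‖c • x‖ = ((k : ℝ) + 1)⁻¹ := by
    rw [norm_smul, Real.norm_of_nonneg hc0.le, hc]
    field_simp
  have hmem : c • x ∈ Tst k := by
    refine ⟨?_, fun s hs => ?_⟩
    · rw [hnc]
      apply inv_le_one_of_one_le₀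
      linarith [Nat.cast_nonneg (α := ℝ) k]
    · refine (abs_pathPotential_le _ s).trans ?_
      rw [hnc]
      have : ((s.length : ℝ) + 1) ≤ k + 1 := by exact_mod_cast Nat.succ_le_succ hs
      rw [← div_eq_mul_inv, div_le_one (by positivity)]
      exact this
  have h1 := lp.norm_apply_le_norm (E := fun _ : Tst k => ℝ) ENNReal.top_ne_zero (J k x)
    ⟨c • x, hmem⟩
  rw [J_apply] at h1
  have h2 : inner ℝ (c • x) x = ((k : ℝ) + 1)⁻¹ * ‖x‖ := by
    rw [real_inner_smul_left, real_inner_self_eq_norm_sq, hc]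
    field_simp
  simp only [h2] at h1
  rw [Real.norm_of_nonneg (by positivity)] at h1
  have hk : (0 : ℝ) < k + 1 := by positivity
  calc ‖x‖ = (k + 1) * (((k : ℝ) + 1)⁻¹ * ‖x‖) := by field_simp
    _ ≤ _ := by gcongr

theorem J_antilipschitz (k : ℕ) : AntilipschitzWith ((k : NNReal) + 1) (J k) :=
  (J k).antilipschitz_of_bound (K := (k : NNReal) + 1) fun x => by
    have := norm_le_J k x
    push_cast
    exact this

/-- the height `k` space -/
noncomputable def EE (k : ℕ) : Submodule ℝ (lp (fun _ : Tst k => ℝ) ⊤) := (J k).range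

theorem isClosed_EE (k : ℕ) : IsClosed (EE k : Set (lp (fun _ : Tst k => ℝ) ⊤)) := by
  have := (J_antilipschitz k).isClosed_range (J k).uniformContinuous
  exact this

instance (k : ℕ) : CompleteSpace (EE k) := (isClosed_EE k).completeSpace_coe

noncomputable def equivEE (k : ℕ) : H ≃L[ℝ] EE k :=
  (J k).equivRange (J_antilipschitz k).injective
    ((J_antilipschitz k).isClosed_range (J k).uniformContinuous)

theorem equivEE_apply (k : ℕ) (x : H) : (equivEE k x : lp (fun _ : Tst k => ℝ) ⊤) = J k x := rfl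

theorem reflexive_EE (k : ℕ) :
    Function.Surjective (NormedSpace.inclusionInDoubleDual ℝ (EE k)) :=
  reflexive_of_equiv (equivEE k)

theorem mem_closure_span (z : H) : z ∈ closure (Submodule.span ℝ
    (Set.range fun s : List ℕ => (lp.single 2 s (1 : ℝ) : H)) : Set H) := by
  have h := lp.hasSum_single (E := fun _ : List ℕ => ℝ) (p := 2) (by simp) z
  refine mem_closure_of_tendsto h (Eventually.of_forall fun A => ?_)
  refine Submodule.sum_mem _ fun s _ => ?_
  have : (lp.single 2 s (z s) : H) = z s • (lp.single 2 s (1 : ℝ) : H) := by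
    rw [← lp.single_smul]; simp
  rw [this]
  exact Submodule.smul_mem _ _ (Submodule.subset_span ⟨s, rfl⟩)

theorem ev_neg (k : ℕ) (f : Tst k) (x : EE k) :
    (x : lp (fun _ : Tst k => ℝ) ⊤) ⟨-f.1, neg_mem_Tst k f.2⟩ =
      - (x : lp (fun _ : Tst k => ℝ) ⊤) f := by
  obtain ⟨_, z, rfl⟩ := x
  exact inner_neg_left _ _

noncomputable def treeSpace (k : ℕ) :
    TreeSpace (EE k) (fun (f : Tst k) (u : List ℕ) => f.1 u) where
  e s := equivEE k (lp.single 2 s (1 : ℝ))
  ev f := (lp.evalCLM ℝ (fun _ : Tst k => ℝ) ⊤ f).comp (EE k).subtypeL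
  ev_e f s := by
    change inner ℝ f.1 (lp.single 2 s (1 : ℝ)) = f.1 s
    rw [lp.inner_single_right]
    simp
  ev_le f x := (le_abs_self _).trans (lp.norm_apply_le_norm ENNReal.top_ne_zero x.1 f)
  exists_ev := by
    intro x ε hε
    haveI : Nonempty (Tst k) := ⟨⟨_, single_mem_Tst k []⟩⟩
    have h1 : ‖x‖ = ⨆ i, ‖x.1 i‖ := by
      rw [← lp.norm_eq_ciSup]; rfl
    have h2 : ‖x‖ - ε < ⨆ i, ‖x.1 i‖ := by rw [← h1]; linarith
    obtain ⟨f, hf⟩ := exists_lt_of_lt_ciSup h2
    rcases le_total 0 (x.1 f) with h | h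
    · refine ⟨f, ?_⟩
      rw [Real.norm_of_nonneg h] at hf
      exact hf
    · refine ⟨⟨-f.1, neg_mem_Tst k f.2⟩, ?_⟩
      rw [Real.norm_of_nonpos h, ← ev_neg k f x] at hf
      exact hf
  dense := by
    intro x
    obtain ⟨z, rfl⟩ := (equivEE k).surjective x
    refine map_mem_closure (equivEE k).continuous (mem_closure_span z) fun w hw => ?_
    replace hw : w ∈ Submodule.span ℝ (Set.range fun s : List ℕ => (lp.single 2 s (1 : ℝ) : H)) := hw
    have := Submodule.mem_map_of_mem (f := ((equivEE k : H →L[ℝ] EE k) : H →ₗ[ℝ] EE k)) hw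
    rw [Submodule.map_span, ← Set.range_comp] at this
    exact this

theorem goodMod_EE (k : ℕ) : GoodMod (EE k) := goodMod (isTestSys k) (treeSpace k)

end Crest.Agent.AUC.Height
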