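import Mathlib
import Crest.Prelude.Def_DaugavetL1
import Crest.Agent.AUC.Tree

/-! Lower bounds for subspaces of L¹ whose ball is totally bounded in measure. -/

set_option autoImplicit false
open Filter Topology MeasureTheory

namespace Crest.Agent.AUC.MeasBall

open Crest.AnalysisR.L1Subspace Crest.Agent.AUC.Tree

variable {Ω : Type} [mΩ : MeasurableSpace Ω] {P : Measure Ω}

theorem exists_delta {f : Ω → ℝ} (hf : Integrable f P) (ρ : ℝ) (hρ : 0 < ρ) :
    ∃ δ : ℝ, 0 < δ ∧ ∀ s : Set Ω, P s < ENNReal.ofReal δ → ∫ ω in s, |f ω| ∂P < ρ := by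
  have h1 : Tendsto (P ∘ (id : Set Ω → Set Ω)) (comap (fun s : Set Ω => P s) (𝓝 0)) (𝓝 0) :=
    tendsto_comap
  have h2 := (hf.abs).tendsto_setIntegral_nhds_zero h1
  have h3 : ∀ᶠ s in comap (fun s : Set Ω => P s) (𝓝 0), ∫ ω in s, |f ω| ∂P < ρ :=
    h2.eventually (gt_mem_nhds hρ)
  rw [eventually_comap] at h3
  obtain ⟨ε, hε, hε2⟩ := (ENNReal.nhds_zero_basis.eventually_iff).1 h3
  obtain ⟨δ, hδ, hδε⟩ := ENNReal.lt_iff_exists_nnreal_btwn.1 hε
  refine ⟨δ, by exact_mod_cast hδ, fun s hs => ?_⟩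
  refine hε2 (x := P s) ?_ s rfl
  simp only [Set.mem_Iio]
  rw [ENNReal.ofReal_coe_nnreal] at hs
  exact hs.trans hδε

/-- pointwise inequality, average -/
theorem pw_avg_off (x y h t c : ℝ) (ht : 0 < t) (hc : |y - h| ≤ c) :
    2 * |x| + 2 * t * |y| - 2 * t * |h| ≤ |x + t * y| + |x - t * y| + 4 * t * c := by
  have a1 : |x + t * h| ≤ |x + t * y| + t * |y - h| := by
    have : x + t * h = (x + t * y) - t * (y - h) := by ring
    rw [this]
    refine (abs_sub _ _).trans ?_
    rw [abs_mul, abs_of_pos ht]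
  have a2 : |x - t * h| ≤ |x - t * y| + t * |y - h| := by
    have : x - t * h = (x - t * y) + t * (y - h) := by ring
    rw [this]
    refine (abs_add_le _ _).trans ?_
    rw [abs_mul, abs_of_pos ht]
  have a3 : 2 * |x| ≤ |x + t * h| + |x - t * h| := by
    have : 2 * |x| = |(x + t * h) + (x - t * h)| := by
      rw [show (x + t * h) + (x - t * h) = 2 * x by ring, abs_mul]; norm_num
    rw [this]; exact abs_add_le _ _
  have a4 : |y| ≤ |h| + |y - h| := by
    have : y = h + (y - h) := by ring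
    calc |y| = |h + (y - h)| := by rw [← this]
      _ ≤ _ := abs_add_le _ _
  have a5 : t * |y - h| ≤ t * c := by gcongr
  have a6 : t * |y| ≤ t * (|h| + |y - h|) := by gcongr
  nlinarith

theorem pw_avg_on (x y h t : ℝ) (ht : 0 < t) :
    2 * |x| + 2 * t * |y| - 2 * t * |h| ≤ |x + t * y| + |x - t * y| + 2 * |x| := by
  have a1 : 2 * t * |y| ≤ |x + t * y| + |x - t * y| := by
    have : 2 * t * |y| = |(x + t * y) - (x - t * y)| := by
      rw [show (x + t * y) - (x - t * y) = (2 * t) * y by ring, abs_mul,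
        abs_of_pos (show 0 < 2 * t by positivity)]
    rw [this]; exact abs_sub _ _
  have : 0 ≤ 2 * t * |h| := by positivity
  linarith

theorem pw_one_off (x y h t c : ℝ) (ht : 0 < t) (hc : |y - h| ≤ c) :
    |x| + t * |y| - 2 * t * |h| ≤ |x + t * y| + 2 * t * c := by
  have a1 : |x| ≤ |x + t * y| + t * |y| := by
    have : x = (x + t * y) - t * y := by ring
    calc |x| = |(x + t * y) - t * y| := by rw [← this]
      _ ≤ |x + t * y| + |t * y| := abs_sub _ _
      _ = _ := by rw [abs_mul, abs_of_pos ht]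
  have a4 : |y| ≤ |h| + |y - h| := by
    have : y = h + (y - h) := by ring
    calc |y| = |h + (y - h)| := by rw [← this]
      _ ≤ _ := abs_add_le _ _
  have a5 : t * |y - h| ≤ t * c := by gcongr
  have a6 : t * |y| ≤ t * (|h| + |y - h|) := by gcongr
  nlinarith

theorem pw_one_on (x y h t : ℝ) (ht : 0 < t) :
    |x| + t * |y| - 2 * t * |h| ≤ |x + t * y| + 2 * |x| := by
  have a1 : t * |y| ≤ |x + t * y| + |x| := by
    have : t * |y| = |(x + t * y) - x| := by
      rw [show (x + t * y) - x = t * y by ring, abs_mul, abs_of_pos ht]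
    rw [this]; exact abs_sub _ _
  have : 0 ≤ 2 * t * |h| := by positivity
  linarith

theorem pw_sign_off (y h c : ℝ) (hc : |y - h| ≤ c) :
    2 * |h| ≤ (SignType.sign h : ℝ) * y + |y| + 2 * c := by
  have a1 : (SignType.sign h : ℝ) * h = |h| := sign_mul_self h
  have a2 : |(SignType.sign h : ℝ)| ≤ 1 := by
    rcases lt_trichotomy h 0 with h0 | h0 | h0
    · simp [sign_neg h0]
    · simp [h0]
    · simp [sign_pos h0]
  have a3 : |(SignType.sign h : ℝ) * (y - h)| ≤ |y - h| := by
    rw [abs_mul]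
    exact mul_le_of_le_one_left (abs_nonneg _) a2
  have a4 := (abs_le.1 a3).1
  have a5 : |h| ≤ |y| + |y - h| := by
    have : h = y - (y - h) := by ring
    calc |h| = |y - (y - h)| := by rw [← this]
      _ ≤ _ := abs_sub _ _
  nlinarith

theorem abs_sign_le (h : ℝ) : |(SignType.sign h : ℝ)| ≤ 1 := by
  rcases lt_trichotomy h 0 with h0 | h0 | h0
  · simp [sign_neg h0]
  · simp [h0]
  · simp [sign_pos h0]

theorem pw_sign_on (y h K : ℝ) (hK : |h| ≤ K) :
    2 * |h| ≤ (SignType.sign h : ℝ) * y + |y| + 2 * K := by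
  have a3 : |(SignType.sign h : ℝ) * y| ≤ |y| := by
    rw [abs_mul]
    exact mul_le_of_le_one_left (abs_nonneg _) (abs_sign_le h)
  have a4 := (abs_le.1 a3).1
  linarith

variable [IsProbabilityMeasure P]

/-- pairing with a bounded measurable function -/
noncomputable def pair (P : Measure Ω) [IsProbabilityMeasure P] (σ : Ω → ℝ) (hσ : Measurable σ)
    (hb : ∀ ω, |σ ω| ≤ 1) : Lp ℝ 1 P →L[ℝ] ℝ :=
  LinearMap.mkContinuous
    { toFun := fun y => ∫ ω, σ ω * y ω ∂P
      map_add' := fun y z => by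
        have hy := (L1.integrable_coeFn y).bdd_mul hσ.aestronglyMeasurable
          (Eventually.of_forall fun ω => (hb ω))
        have hz := (L1.integrable_coeFn z).bdd_mul hσ.aestronglyMeasurable
          (Eventually.of_forall fun ω => (hb ω))
        rw [← integral_add hy hz]
        refine integral_congr_ae ?_
        filter_upwards [Lp.coeFn_add y z] with ω hω
        rw [hω, Pi.add_apply, mul_add]
      map_smul' := fun c y => by
        rw [RingHom.id_apply, smul_eq_mul, ← integral_const_mul]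
        refine integral_congr_ae ?_
        filter_upwards [Lp.coeFn_smul c y] with ω hω
        rw [hω, Pi.smul_apply, smul_eq_mul]
        ring } 1 (fun y => by
      rw [one_mul]
      change ‖∫ ω, σ ω * y ω ∂P‖ ≤ ‖y‖
      rw [L1.norm_eq_integral_norm]
      refine (norm_integral_le_integral_norm _).trans ?_
      refine integral_mono_of_nonneg (Eventually.of_forall fun _ => norm_nonneg _)
        (L1.integrable_coeFn y).norm (Eventually.of_forall fun ω => ?_)
      change ‖σ ω * y ω‖ ≤ ‖y ω‖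
      rw [norm_mul]
      exact mul_le_of_le_one_left (norm_nonneg _) (hb ω))

theorem pair_apply (σ : Ω → ℝ) (hσ : Measurable σ) (hb : ∀ ω, |σ ω| ≤ 1) (y : Lp ℝ 1 P) :
    pair P σ hσ hb y = ∫ ω, σ ω * y ω ∂P := rfl

theorem exists_of_measureDist {f g : Lp ℝ 1 P} {ε : ℝ} (h : measureDist P f g < ε) :
    P {z | ε ≤ |f z - g z|} < ENNReal.ofReal ε := by
  have hne : {a : ℝ | 0 < a ∧ P {z | a < abs ((f : Ω → ℝ) z - (g : Ω → ℝ) z)} <
      ENNReal.ofReal a}.Nonempty := by
    refine ⟨2, by norm_num, ?_⟩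
    refine lt_of_le_of_lt prob_le_one ?_
    simp
  obtain ⟨a, ⟨ha0, ha1⟩, ha2⟩ := exists_lt_of_csInf_lt hne h
  refine lt_of_le_of_lt (measure_mono ?_) (ha1.trans ((ENNReal.ofReal_lt_ofReal_iff
    (ha0.trans ha2)).2 ha2))
  intro z hz
  exact lt_of_lt_of_le ha2 hz

/-- truncation -/
noncomputable def trunc (K : ℝ) (g : Ω → ℝ) : Ω → ℝ := fun ω => if |g ω| < K then g ω else 0

theorem measurable_trunc (K : ℝ) {g : Ω → ℝ} (hg : Measurable g) : Measurable (trunc K g) := by
  unfold trunc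
  refine Measurable.ite ?_ hg measurable_const
  exact measurableSet_lt hg.norm measurable_const

omit mΩ in
theorem abs_trunc_le (K : ℝ) (hK : 0 ≤ K) (g : Ω → ℝ) (ω : Ω) : |trunc K g ω| ≤ K := by
  unfold trunc
  split_ifs with h
  · exact h.le
  · simpa using hK

theorem core (E : Submodule ℝ (Lp ℝ 1 P)) (htb : UnitBallTotallyBoundedInMeasure P E) (x : E)
    (ρ : ℝ) (hρ : 0 < ρ) : ∃ S : Submodule ℝ E, IsClosed (S : Set E) ∧
      FiniteDimensional ℝ (E ⧸ S) ∧ ∀ y ∈ S, ‖y‖ = 1 → ∃ h : ℝ, h ≤ 1 / 2 + ρ ∧ ∀ t : ℝ, 0 < t →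
        2 * ‖x‖ + 2 * t - 2 * t * h - (4 * t * ρ + 2 * ρ) ≤ ‖x + t • y‖ + ‖x - t • y‖ ∧
        ‖x‖ + t - 2 * t * h - (2 * t * ρ + 2 * ρ) ≤ ‖x + t • y‖ := by
  obtain ⟨δ, hδ0, hδ⟩ := exists_delta (L1.integrable_coeFn (x : Lp ℝ 1 P)) ρ hρ
  -- the small parameter
  obtain ⟨κ, hκ0, hκ1, hκρ, hκδ⟩ : ∃ κ : ℝ, 0 < κ ∧ κ < 1 ∧ 2 * κ ≤ ρ ∧ 2 * κ < δ := by
    refine ⟨min (1 / 2) (min (ρ / 2) (δ / 4)), by positivity, ?_, ?_, ?_⟩
    · exact (min_le_left _ _).trans_lt (by norm_num)
    · have := (min_le_right (1 / 2) (min (ρ / 2) (δ / 4))).trans (min_le_left _ _)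
      linarith
    · have := (min_le_right (1 / 2) (min (ρ / 2) (δ / 4))).trans (min_le_right _ _)
      linarith
  have hκ2 : κ ^ 2 ≤ κ := by nlinarith
  obtain ⟨s, hs1, hs2⟩ := htb (κ ^ 2) (by positivity)
  set K : ℝ := κ⁻¹ with hK
  have hK0 : 0 < K := by positivity
  have hmeas : ∀ g : Lp ℝ 1 P, Measurable (g : Ω → ℝ) := fun g => (Lp.stronglyMeasurable g).measurable
  have hσm : ∀ g : Lp ℝ 1 P, Measurable fun ω => (SignType.sign (trunc K g ω) : ℝ) := by
    intro g
    have h1 : Measurable fun r : ℝ => (SignType.sign r : ℝ) := by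
      have : (fun r : ℝ => (SignType.sign r : ℝ)) =
          fun r => if 0 < r then (1 : ℝ) else if r < 0 then -1 else 0 := by
        ext r
        rcases lt_trichotomy r 0 with h | h | h
        · rw [sign_neg h]; simp [h, not_lt.2 h.le]
        · simp [h]
        · rw [sign_pos h]; simp [h]
      rw [this]
      refine Measurable.ite measurableSet_Ioi measurable_const ?_
      exact Measurable.ite measurableSet_Iio measurable_const measurable_const
    exact h1.comp (measurable_trunc K (hmeas g))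
  let φ : Lp ℝ 1 P → (Lp ℝ 1 P →L[ℝ] ℝ) := fun g =>
    pair P (fun ω => (SignType.sign (trunc K g ω) : ℝ)) (hσm g) (fun ω => abs_sign_le _)
  let Φ : E →L[ℝ] (s → ℝ) := ContinuousLinearMap.pi fun g => (φ g.1).comp E.subtypeL
  obtain ⟨hcl, hfd⟩ := ker_cof Φ
  refine ⟨_, hcl, hfd, fun y hy hy1 => ?_⟩
  obtain ⟨g, hgs, hg⟩ := hs2 y y.2 hy1.le
  have hφy : ∫ ω, (SignType.sign (trunc K g ω) : ℝ) * (y : Lp ℝ 1 P) ω ∂P = 0 := by
    have h1 : Φ y = 0 := hy
    have h2 : Φ y ⟨g, hgs⟩ = 0 := by rw [h1]; rfl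
    exact h2
  -- functions
  set X : Ω → ℝ := ((x : Lp ℝ 1 P) : Ω → ℝ) with hX
  set Y : Ω → ℝ := ((y : Lp ℝ 1 P) : Ω → ℝ) with hY
  set G : Ω → ℝ := (g : Ω → ℝ) with hG
  set H : Ω → ℝ := trunc K G with hH
  have hXi : Integrable X P := L1.integrable_coeFn _
  have hYi : Integrable Y P := L1.integrable_coeFn _
  have hGi : Integrable G P := L1.integrable_coeFn _
  have hXm : Measurable X := hmeas _
  have hYm : Measurable Y := hmeas _
  have hGm : Measurable G := hmeas _
  have hHm : Measurable H := measurable_trunc K hGm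
  have hHb : ∀ ω, |H ω| ≤ K := fun ω => abs_trunc_le K hK0.le G ω
  have hHi : Integrable H P :=
    Integrable.of_bound hHm.aestronglyMeasurable K (Eventually.of_forall hHb)
  have hXn : ∫ ω, |X ω| ∂P = ‖x‖ := by
    change _ = ‖(x : Lp ℝ 1 P)‖
    rw [L1.norm_eq_integral_norm]; rfl
  have hYn : ∫ ω, |Y ω| ∂P = 1 := by
    rw [← hy1]
    change _ = ‖(y : Lp ℝ 1 P)‖
    rw [L1.norm_eq_integral_norm]; rfl
  have hGn : ∫ ω, |G ω| ∂P ≤ 1 := by
    refine le_trans (le_of_eq ?_) (hs1 g hgs).2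
    rw [L1.norm_eq_integral_norm]; rfl
  set B1 : Set Ω := {ω | κ ^ 2 ≤ |Y ω - G ω|} with hB1
  set B2 : Set Ω := {ω | K ≤ |G ω|} with hB2
  have hB1m : MeasurableSet B1 := measurableSet_le measurable_const (hYm.sub hGm).norm
  have hB2m : MeasurableSet B2 := measurableSet_le measurable_const hGm.norm
  have hPB1 : P B1 < ENNReal.ofReal (κ ^ 2) := exists_of_measureDist hg
  have hPB1' : P.real B1 ≤ κ ^ 2 := by
    rw [measureReal_def]
    exact ENNReal.toReal_le_of_le_ofReal (by positivity) hPB1.le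
  have hPB2' : P.real B2 ≤ κ := by
    have h1 := mul_meas_ge_le_integral_of_nonneg (μ := P) (f := fun ω => |G ω|)
      (Eventually.of_forall fun ω => abs_nonneg _) hGi.abs K
    have h2 : K * P.real B2 ≤ 1 := h1.trans hGn
    rw [hK] at h2
    rw [inv_mul_le_iff₀ hκ0] at h2
    linarith
  set B : Set Ω := B1 ∪ B2 with hB
  have hBm : MeasurableSet B := hB1m.union hB2m
  have hPB : P B < ENNReal.ofReal δ := by
    have h1 : P.real B ≤ κ ^ 2 + κ := (measureReal_union_le B1 B2).trans (by gcongr)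
    have h2 : P B = ENNReal.ofReal (P.real B) := by
      rw [measureReal_def, ENNReal.ofReal_toReal (measure_ne_top P B)]
    rw [h2]
    refine (ENNReal.ofReal_lt_ofReal_iff hδ0).2 ?_
    linarith
  have hxB : ∫ ω in B, |X ω| ∂P < ρ := hδ B hPB
  have hoff : ∀ ω, ω ∉ B → |Y ω - H ω| ≤ κ ^ 2 := by
    intro ω hω
    have h1 : ¬ (κ ^ 2 ≤ |Y ω - G ω|) := fun h => hω (Or.inl h)
    have h2 : ¬ (K ≤ |G ω|) := fun h => hω (Or.inr h)
    push Not at h1 h2
    have h3 : H ω = G ω := by
      rw [hH]; unfold trunc; rw [if_pos h2]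
    rw [h3]; exact h1.le
  have hindi : Integrable (fun ω => B.indicator (fun ω => |X ω|) ω) P :=
    hXi.abs.indicator hBm
  have hindI : ∫ ω, B.indicator (fun ω => |X ω|) ω ∂P = ∫ ω in B, |X ω| ∂P :=
    integral_indicator hBm
  refine ⟨∫ ω, |H ω| ∂P, ?_, fun t ht => ?_⟩
  · -- bound on the norm of H
    have hpt : ∀ ω, 2 * |H ω| ≤ (SignType.sign (H ω) : ℝ) * Y ω + |Y ω| + 2 * κ ^ 2 +
        B1.indicator (fun _ => 2 * K) ω := by
      intro ω
      by_cases h1 : ω ∈ B1
      · rw [Set.indicator_of_mem h1]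
        have := pw_sign_on (Y ω) (H ω) K (hHb ω)
        have h2 : 0 ≤ κ ^ 2 := by positivity
        linarith
      · rw [Set.indicator_of_notMem h1, add_zero]
        by_cases h2 : ω ∈ B2
        · have h3 : H ω = 0 := by
            rw [hH]; unfold trunc; rw [if_neg (not_lt.2 h2)]
          rw [h3]
          simp only [abs_zero, mul_zero, sign_zero, SignType.coe_zero, zero_mul, zero_add]
          positivity
        · exact pw_sign_off (Y ω) (H ω) (κ ^ 2) (hoff ω (fun h => h.elim h1 h2))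
    have hi1 : Integrable (fun ω => (SignType.sign (H ω) : ℝ) * Y ω) P :=
      hYi.bdd_mul (hσm g).aestronglyMeasurable (Eventually.of_forall fun ω => abs_sign_le _)
    have hi2 : Integrable (fun ω => B1.indicator (fun _ => 2 * K) ω) P :=
      (integrable_const _).indicator hB1m
    have hint := integral_mono (hHi.abs.const_mul 2)
      (((hi1.add hYi.abs).add (integrable_const (2 * κ ^ 2))).add hi2) hpt
    have e3 : ∫ ω, B1.indicator (fun _ => 2 * K) ω ∂P = 2 * K * P.real B1 := by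
      rw [integral_indicator hB1m, setIntegral_const, smul_eq_mul]; ring
    have e4 : ∫ _ω : Ω, (2 * κ ^ 2 : ℝ) ∂P = 2 * κ ^ 2 := by
      rw [integral_const, probReal_univ, one_smul]
    rw [integral_add' ((hi1.add hYi.abs).add (integrable_const (2 * κ ^ 2))) hi2,
      integral_add' (hi1.add hYi.abs) (integrable_const (2 * κ ^ 2)),
      integral_add' hi1 hYi.abs, hYn, e3, e4, hφy, integral_const_mul] at hint
    have e2 : K * P.real B1 ≤ κ := by
      calc K * P.real B1 ≤ K * κ ^ 2 := by gcongr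
        _ = κ := by rw [hK]; field_simp
    linarith
  · have hadd : ∀ c : ℝ, ∫ ω, |X ω + c * Y ω| ∂P = ‖x + c • y‖ := by
      intro c
      change _ = ‖((x + c • y : E) : Lp ℝ 1 P)‖
      rw [L1.norm_eq_integral_norm]
      refine integral_congr_ae ?_
      have e1 : ((x + c • y : E) : Lp ℝ 1 P) = (x : Lp ℝ 1 P) + c • (y : Lp ℝ 1 P) := rfl
      rw [e1]
      filter_upwards [Lp.coeFn_add (x : Lp ℝ 1 P) (c • (y : Lp ℝ 1 P)),
        Lp.coeFn_smul c (y : Lp ℝ 1 P)] with ω h1 h2
      rw [h1, Pi.add_apply, h2, Pi.smul_apply, smul_eq_mul]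
      rfl
    have hsub : ∫ ω, |X ω - t * Y ω| ∂P = ‖x - t • y‖ := by
      have h1 := hadd (-t)
      rw [neg_smul, ← sub_eq_add_neg] at h1
      rw [← h1]
      refine integral_congr_ae (Eventually.of_forall fun ω => ?_)
      change |X ω - t * Y ω| = |X ω + -t * Y ω|
      congr 1; ring
    have hi1 : Integrable (fun ω => |X ω + t * Y ω|) P := (hXi.add (hYi.const_mul t)).abs
    have hi2 : Integrable (fun ω => |X ω - t * Y ω|) P := (hXi.sub (hYi.const_mul t)).abs
    have hκρ' : κ ^ 2 ≤ ρ := by linarith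
    constructor
    · have hpt : ∀ ω, 2 * |X ω| + 2 * t * |Y ω| - 2 * t * |H ω| ≤
          |X ω + t * Y ω| + |X ω - t * Y ω| + 4 * t * κ ^ 2 +
            2 * B.indicator (fun ω => |X ω|) ω := by
        intro ω
        by_cases h : ω ∈ B
        · rw [Set.indicator_of_mem h]
          have h1 := pw_avg_on (X ω) (Y ω) (H ω) t ht
          have h2 : 0 ≤ 4 * t * κ ^ 2 := by positivity
          linarith
        · rw [Set.indicator_of_notMem h, mul_zero, add_zero]
          exact pw_avg_off (X ω) (Y ω) (H ω) t (κ ^ 2) ht (hoff ω h)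
      have e4 : ∫ _ω : Ω, (4 * t * κ ^ 2 : ℝ) ∂P = 4 * t * κ ^ 2 := by
        rw [integral_const, probReal_univ, one_smul]
      have hint := integral_mono
        (((hXi.abs.const_mul 2).add (hYi.abs.const_mul (2 * t))).sub (hHi.abs.const_mul (2 * t)))
        (((hi1.add hi2).add (integrable_const (4 * t * κ ^ 2))).add (hindi.const_mul 2)) hpt
      rw [integral_add' ((hi1.add hi2).add (integrable_const (4 * t * κ ^ 2))) (hindi.const_mul 2),
        integral_add' (hi1.add hi2) (integrable_const (4 * t * κ ^ 2)),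
        integral_add' hi1 hi2,
        integral_sub' ((hXi.abs.const_mul 2).add (hYi.abs.const_mul (2 * t)))
          (hHi.abs.const_mul (2 * t)),
        integral_add' (hXi.abs.const_mul 2) (hYi.abs.const_mul (2 * t)), e4, integral_const_mul,
        integral_const_mul, integral_const_mul, integral_const_mul, hindI, hXn,
        hYn, hadd t, hsub] at hint
      have h3 : 4 * t * κ ^ 2 ≤ 4 * t * ρ := by gcongr
      linarith
    · have hpt : ∀ ω, |X ω| + t * |Y ω| - 2 * t * |H ω| ≤
          |X ω + t * Y ω| + 2 * t * κ ^ 2 + 2 * B.indicator (fun ω => |X ω|) ω := by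
        intro ω
        by_cases h : ω ∈ B
        · rw [Set.indicator_of_mem h]
          have h1 := pw_one_on (X ω) (Y ω) (H ω) t ht
          have h2 : 0 ≤ 2 * t * κ ^ 2 := by positivity
          linarith
        · rw [Set.indicator_of_notMem h, mul_zero, add_zero]
          exact pw_one_off (X ω) (Y ω) (H ω) t (κ ^ 2) ht (hoff ω h)
      have e4 : ∫ _ω : Ω, (2 * t * κ ^ 2 : ℝ) ∂P = 2 * t * κ ^ 2 := by
        rw [integral_const, probReal_univ, one_smul]
      have hint := integral_mono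
        ((hXi.abs.add (hYi.abs.const_mul t)).sub (hHi.abs.const_mul (2 * t)))
        ((hi1.add (integrable_const (2 * t * κ ^ 2))).add (hindi.const_mul 2)) hpt
      rw [integral_add' (hi1.add (integrable_const (2 * t * κ ^ 2))) (hindi.const_mul 2),
        integral_add' hi1 (integrable_const (2 * t * κ ^ 2)),
        integral_sub' (hXi.abs.add (hYi.abs.const_mul t)) (hHi.abs.const_mul (2 * t)),
        integral_add' hXi.abs (hYi.abs.const_mul t), e4, integral_const_mul,
        integral_const_mul, integral_const_mul, hindI, hXn,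
        hYn, hadd t] at hint
      have h3 : 2 * t * κ ^ 2 ≤ 2 * t * ρ := by gcongr
      linarith

end Crest.Agent.AUC.MeasBall
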